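import Vale.Agent.P088.Stmt

/-! P088: pointwise linear algebra. -/

open Matrix
open scoped RealInnerProductSpace

noncomputable section

namespace Vale.Agent.P088

variable {n : ℕ} {V : Type} [NormedAddCommGroup V] [InnerProductSpace ℝ V]
  {a : Matrix (Fin n) (Fin n) ℝ}

/-- The contraction of two vector valued covectors. -/
def ipm (a : Matrix (Fin n) (Fin n) ℝ) (L L' : Fin n → V) : ℝ := ∑ i, ∑ j, a i j * ⟪L i, L' j⟫

theorem ipm_basis [FiniteDimensional ℝ V] (a : Matrix (Fin n) (Fin n) ℝ) (L : Fin n → V) :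
    ipm a L L = ∑ k, (fun i => ⟪stdOrthonormalBasis ℝ V k, L i⟫) ⬝ᵥ
      a *ᵥ fun i => ⟪stdOrthonormalBasis ℝ V k, L i⟫ := by
  simp only [ipm, dotProduct, mulVec, Finset.mul_sum]
  rw [Finset.sum_comm (β := ℝ) (s := Finset.univ) (t := Finset.univ)
    (f := fun k i => ∑ j, ⟪stdOrthonormalBasis ℝ V k, L i⟫ * (a i j * ⟪stdOrthonormalBasis ℝ V k, L j⟫))]
  refine Finset.sum_congr rfl fun i _ => ?_
  rw [Finset.sum_comm]
  refine Finset.sum_congr rfl fun j _ => ?_
  rw [← (stdOrthonormalBasis ℝ V).sum_inner_mul_inner, Finset.mul_sum]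
  refine Finset.sum_congr rfl fun k _ => ?_
  rw [real_inner_comm]
  ring

theorem ipm_nonneg [FiniteDimensional ℝ V] (ha : a.PosDef) (L : Fin n → V) : 0 ≤ ipm a L L := by
  rw [ipm_basis]
  exact Finset.sum_nonneg fun k _ => ha.posSemidef.dotProduct_mulVec_nonneg _

theorem ipm_eq_zero [FiniteDimensional ℝ V] (ha : a.PosDef) {L : Fin n → V} (h : ipm a L L = 0)
    (i : Fin n) : L i = 0 := by
  rw [ipm_basis] at h
  replace h := (Finset.sum_eq_zero_iff_of_nonneg
    fun k _ => by exact ha.posSemidef.dotProduct_mulVec_nonneg _).1 h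
  rw [← (stdOrthonormalBasis ℝ V).sum_repr' (L i)]
  refine Finset.sum_eq_zero fun k hk => ?_
  have h1 : (fun i => ⟪stdOrthonormalBasis ℝ V k, L i⟫) = 0 := by
    by_contra h2
    exact (ha.dotProduct_mulVec_pos h2).ne' (h k hk)
  rw [congrFun h1 i, Pi.zero_apply, zero_smul]

theorem ipm_comm (ha : a.PosDef) (L L' : Fin n → V) : ipm a L L' = ipm a L' L := by
  rw [ipm, Finset.sum_comm]
  refine Finset.sum_congr rfl fun i _ => Finset.sum_congr rfl fun j _ => ?_
  rw [real_inner_comm, show a j i = a i j from ha.isHermitian.apply i j]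

theorem ipm_add_right (L P Q : Fin n → V) :
    ipm a L (fun i => P i + Q i) = ipm a L P + ipm a L Q := by
  simp only [ipm, inner_add_right, mul_add, Finset.sum_add_distrib]

theorem ipm_sub_right (L P Q : Fin n → V) :
    ipm a L (fun i => P i - Q i) = ipm a L P - ipm a L Q := by
  simp only [ipm, inner_sub_right, mul_sub, Finset.sum_sub_distrib]

theorem ipm_smul_right (L P : Fin n → V) (c : ℝ) : ipm a L (fun i => c • P i) = c * ipm a L P := by
  simp only [ipm, inner_smul_right, Finset.mul_sum, mul_left_comm]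

theorem ipm_sub_left (L P Q : Fin n → V) :
    ipm a (fun i => P i - Q i) L = ipm a P L - ipm a Q L := by
  simp only [ipm, inner_sub_left, mul_sub, Finset.sum_sub_distrib]

theorem ipm_smul_left (L P : Fin n → V) (c : ℝ) : ipm a (fun i => c • P i) L = c * ipm a P L := by
  simp only [ipm, real_inner_smul_left, Finset.mul_sum, mul_left_comm]

theorem ipm_mul_right (α β : Fin n → ℝ) (c : ℝ) : ipm a α (fun i => c * β i) = c * ipm a α β :=
  ipm_smul_right α β c

theorem ipm_tens (L : Fin n → V) (α : Fin n → ℝ) (s : V) :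
    ipm a L (fun j => α j • s) = ipm a (fun i => ⟪L i, s⟫) α := by
  simp only [ipm, inner_smul_right, RCLike.inner_apply, conj_trivial]

theorem ipm_real (α β : Fin n → ℝ) : ipm a α β = ∑ i, ∑ j, a i j * (α i * β j) := by
  simp only [ipm, RCLike.inner_apply, conj_trivial, mul_comm]

/-- The expansion behind the identity of Picone. -/
theorem ipm_pic (ha : a.PosDef) (L : Fin n → V) (α : Fin n → ℝ) (s : V) (w : ℝ) :
    ipm a (fun i => w • L i - α i • s) (fun i => w • L i - α i • s) =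
      w ^ 2 * ipm a L L - w * ipm a α (fun i => 2 * ⟪L i, s⟫) + ⟪s, s⟫ * ipm a α α := by
  have e1 : ipm a (fun i => α i • s) (fun i => α i • s) = ⟪s, s⟫ * ipm a α α := by
    rw [ipm_tens, ipm_comm ha, ← ipm_mul_right]
    simp only [real_inner_smul_left, mul_comm]
  rw [ipm_sub_left, ipm_sub_right, ipm_sub_right, e1, ipm_smul_left, ipm_smul_left, ipm_smul_right,
    ipm_smul_right, ipm_comm ha (fun i => α i • s) L, ipm_tens, ipm_comm ha _ α, ipm_mul_right]
  ring

theorem ipm_cs [FiniteDimensional ℝ V] (ha : a.PosDef) (L P : Fin n → V) :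
    2 * |ipm a L P| ≤ ipm a L L + ipm a P P := by
  have h1 := ipm_nonneg ha fun i => L i - P i
  have h2 := ipm_nonneg ha fun i => L i - (-1 : ℝ) • P i
  rw [ipm_sub_left, ipm_sub_right, ipm_sub_right, ipm_comm ha P L] at h1
  rw [ipm_sub_left, ipm_sub_right, ipm_sub_right, ipm_smul_left, ipm_smul_left, ipm_smul_right,
    ipm_smul_right, ipm_comm ha P L] at h2
  rcases abs_cases (ipm a L P) with h | h <;> linarith [h.1]

theorem bv_sum (v : Ec n) : v = ∑ k, v k • bv k := by
  ext i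
  simp [bv, Pi.single_apply]

theorem gram_posDef {W : Type} [AddCommGroup W] [Module ℝ W] (b : W →ₗ[ℝ] W →ₗ[ℝ] ℝ)
    (hs : ∀ v w, b v w = b w v) (hp : ∀ v, v ≠ 0 → 0 < b v v) (D : Ec n →ₗ[ℝ] W)
    (hD : Function.Injective D) : (gram fun v w => b (D v) (D w)).PosDef := by
  refine PosDef.of_dotProduct_mulVec_pos (IsHermitian.ext fun i j => hs _ _) fun x hx => ?_
  have h1 : (WithLp.toLp 2 x : Ec n) ≠ 0 := fun h => hx (congrArg WithLp.ofLp h)
  have h2 := hp (D (WithLp.toLp 2 x)) fun h => h1 (hD (h.trans (map_zero D).symm))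
  rw [bv_sum (WithLp.toLp 2 x)] at h2
  simp only [map_sum, map_smul, LinearMap.sum_apply, LinearMap.smul_apply, smul_eq_mul,
    Finset.mul_sum] at h2
  simp only [dotProduct, mulVec, gram, of_apply, star_trivial, Finset.mul_sum]
  refine h2.trans_eq ?_
  rw [Finset.sum_comm]
  refine Finset.sum_congr rfl fun i _ => Finset.sum_congr rfl fun j _ => ?_
  ring

/-- The contraction does not depend on the basis. -/
theorem ctr_change {W : Type} [AddCommGroup W] [Module ℝ W] (b : Ec n →ₗ[ℝ] Ec n →ₗ[ℝ] ℝ)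
    (D : Ec n →ₗ[ℝ] Ec n) (h : (gram fun v w => b (D v) (D w)).PosDef)
    (B : Ec n →ₗ[ℝ] Ec n →ₗ[ℝ] W) :
    ∑ i, ∑ j, (gram fun v w => b (D v) (D w))⁻¹ i j • B (D (bv i)) (D (bv j)) =
      ∑ i, ∑ j, (gram fun v w => b v w)⁻¹ i j • B (bv i) (bv j) := by
  obtain ⟨P, hP⟩ : ∃ P : Matrix (Fin n) (Fin n) ℝ, ∀ k i, P k i = D (bv i) k :=
    ⟨of fun k i => D (bv i) k, fun _ _ => rfl⟩
  have e : ∀ i, D (bv i) = ∑ k, P k i • bv k := fun i => by
    simp only [hP]
    exact bv_sum _
  have e1 : (gram fun v w => b (D v) (D w)) = Pᵀ * (gram fun v w => b v w) * P := by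
    ext i j
    simp only [gram, of_apply, e, map_sum, map_smul, LinearMap.sum_apply, LinearMap.smul_apply,
      smul_eq_mul, Matrix.mul_apply, transpose_apply, Finset.mul_sum, Finset.sum_mul]
    refine Finset.sum_congr rfl fun k _ => Finset.sum_congr rfl fun l _ => ?_
    ring
  have h1 := h.det_pos.ne'
  rw [e1, det_mul] at h1
  have h2 : IsUnit P.det := (right_ne_zero_of_mul h1).isUnit
  have e2 : (gram fun v w => b v w)⁻¹ = P * (gram fun v w => b (D v) (D w))⁻¹ * Pᵀ := by
    rw [e1, Matrix.mul_inv_rev, Matrix.mul_inv_rev, Matrix.mul_nonsing_inv_cancel_left _ _ h2,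
      Matrix.nonsing_inv_mul_cancel_right _ _ (by rwa [det_transpose])]
  rw [e2]
  generalize (gram fun v w => b (D v) (D w))⁻¹ = c
  simp only [e, map_sum, map_smul, LinearMap.sum_apply, LinearMap.smul_apply, Matrix.mul_apply,
    transpose_apply, Finset.sum_mul, Finset.sum_smul, Finset.smul_sum, smul_smul]
  calc _ = ∑ q : (Fin n × Fin n) × Fin n × Fin n,
        (c q.1.1 q.1.2 * (P q.2.1 q.1.2 * P q.2.2 q.1.1)) • B (bv q.2.2) (bv q.2.1) := by
        simp only [Fintype.sum_prod_type]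
    _ = ∑ q : (Fin n × Fin n) × Fin n × Fin n,
        (P q.1.1 q.2.2 * c q.2.2 q.2.1 * P q.1.2 q.2.1) • B (bv q.1.1) (bv q.1.2) := by
        refine Fintype.sum_equiv ((Equiv.prodComm _ _).trans
          ((Equiv.prodComm _ _).prodCongr (Equiv.prodComm _ _))) _ _ fun q => ?_
        simp only [Equiv.trans_apply, Equiv.prodComm_apply, Equiv.prodCongr_apply, Prod.map_fst,
          Prod.map_snd, Prod.fst_swap, Prod.snd_swap]
        congr 1
        ring
    _ = _ := by simp only [Fintype.sum_prod_type]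

end Vale.Agent.P088
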