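import Mathlib

/-! Definitions used in the statements for P088. The model space `E` with its basis `e`, the fibre
`F`, the algebra `B` of its endomorphisms and the action `act` of `B` on `F` are parameters. -/

open MeasureTheory Set Bundle
open scoped Manifold ContDiff

noncomputable section

namespace Vale.Agent.P088.Spec

variable {n : ℕ} {E H : Type} [NormedAddCommGroup E] [NormedSpace ℝ E] [TopologicalSpace H]
  (I : ModelWithCorners ℝ E H) {M : Type} [TopologicalSpace M] [ChartedSpace H M]

/-- The matrix of a bilinear form. -/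
def gram {W : Type} (e : Fin n → W) (b : W → W → ℝ) : Matrix (Fin n) (Fin n) ℝ :=
  Matrix.of fun i j => b (e i) (e j)

/-- Smooth vector valued functions. -/
def Sm {V : Type} [NormedAddCommGroup V] [NormedSpace ℝ V] (u : M → V) : Prop :=
  ContMDiff I 𝓘(ℝ, V) ∞ u

/-- The differential of a vector valued function. -/
def dif {V : Type} [NormedAddCommGroup V] [NormedSpace ℝ V] (u : M → V) (x : M)
    (v : TangentSpace I x) : V :=
  mfderiv I 𝓘(ℝ, V) u x v

/-- The coordinate vector fields of the chart at `p`. -/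
def fr (p : M) (z v : E) : TangentSpace I ((extChartAt I p).symm z) :=
  mfderivWithin 𝓘(ℝ, E) I (extChartAt I p).symm (range I) z v

/-- `Γ` is a nonempty relatively open subset of the boundary. -/
def IsPatch (Γ : Set M) : Prop := Γ.Nonempty ∧ ∃ O : Set M, IsOpen O ∧ Γ = O ∩ I.boundary M

variable [IsManifold I ∞ M]

variable (M) in
/-- Smooth Riemannian metrics. -/
abbrev Met : Type := ContMDiffRiemannianMetric I ∞ E fun x : M => TangentSpace I x

variable (M) in
/-- Smooth one-forms with skew-adjoint values. -/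
structure Conn (B : Type) [NormedRing B] [NormedSpace ℝ B] [StarMul B] where
  A : ∀ x : M, TangentSpace I x →L[ℝ] B
  skew : ∀ x v, star (A x v) = -A x v
  smooth : ContMDiff I.tangent 𝓘(ℝ, B) ∞ fun q : TangentBundle I M => A q.1 q.2

variable {I}

/-- The value of the metric. -/
def met (g : Met I M) (x : M) (v w : TangentSpace I x) : ℝ := g.inner x v w

variable {F B : Type} [NormedAddCommGroup F] [NormedSpace ℝ F] [NormedRing B] [NormedSpace ℝ B]
  [StarMul B]

/-- The value of the one-form. -/
def val (A : Conn I M B) (x : M) (v : TangentSpace I x) : B := A.A x v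

/-- The covariant derivative. -/
def cov (act : B → F → F) (A : Conn I M B) (u : M → F) (x : M) (v : TangentSpace I x) : F :=
  dif I u x v + act (val A x v) (u x)

omit [IsManifold I ∞ M] in
variable (I) in
/-- Smooth maps to the unitary group. -/
def IsUni (U : M → B) : Prop := Sm I U ∧ ∀ x, U x ∈ unitary B

omit [IsManifold I ∞ M] in
variable (I) in
/-- Smooth boundary values supported in `Γ`. -/
def IsTest (Γ : Set M) (f : M → F) : Prop := Sm I f ∧ closure {x ∈ I.boundary M | f x ≠ 0} ⊆ Γ

variable [MeasurableSpace M]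

/-- `μ` is the Riemannian volume. -/
def IsVol [MeasureSpace E] (e : Fin n → E) (g : Met I M) (μ : Measure M) : Prop :=
  ∀ p : M, μ.restrict (extChartAt I p).source = Measure.map (extChartAt I p).symm
    ((volume.restrict (extChartAt I p).target).withDensity fun z => ENNReal.ofReal
      √(gram e fun v w => met g ((extChartAt I p).symm z) (fr I p z v) (fr I p z w)).det)

variable [InnerProductSpace ℂ F]

/-- The energy form of a connection. -/
def form (e : Fin n → E) (act : B → F → F) (g : Met I M) (μ : Measure M) (A : Conn I M B)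
    (u w : M → F) : ℂ :=
  ∫ x, ∑ i, ∑ j, (gram e (met g x))⁻¹ i j • inner ℂ (cov act A u x (e i)) (cov act A w x (e j)) ∂μ

/-- `u` solves the Dirichlet problem with boundary values `f`. -/
def IsSol (e : Fin n → E) (act : B → F → F) (g : Met I M) (μ : Measure M) (A : Conn I M B)
    (f u : M → F) : Prop :=
  Sm I u ∧ EqOn u f (I.boundary M) ∧
    ∀ ζ : M → F, Sm I ζ → tsupport ζ ⊆ I.interior M → form e act g μ A u ζ = 0

/-- The pairs `(g₁, A₁)` and `(g₂, A₂)` have the same data on `Γ`. -/
def SameData [MeasureSpace E] (e : Fin n → E) (act : B → F → F) (Γ : Set M) (g₁ g₂ : Met I M)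
    (A₁ A₂ : Conn I M B) : Prop :=
  ∃ (μ₁ μ₂ : Measure M) (S₁ S₂ : (M → F) → M → F), IsVol e g₁ μ₁ ∧ IsVol e g₂ μ₂ ∧
    (∀ f, IsTest I Γ f → IsSol e act g₁ μ₁ A₁ f (S₁ f)) ∧
    (∀ f, IsTest I Γ f → IsSol e act g₂ μ₂ A₂ f (S₂ f)) ∧
    ∀ f h, IsTest I Γ f → IsTest I Γ h →
      form e act g₁ μ₁ A₁ (S₁ f) (S₁ h) = form e act g₂ μ₂ A₂ (S₂ f) (S₂ h)

end Vale.Agent.P088.Spec
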