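import Vale.Agent.P088.Gauge
import Vale.Agent.P088.Spec

/-! P088: from the definitions of the statement to the working definitions. -/

open MeasureTheory Set
open scoped Manifold ContDiff

noncomputable section

namespace Vale.Agent.P088

variable {n N : ℕ} {H : Type} [TopologicalSpace H] {I : ModelWithCorners ℝ (Ec n) H}
  {M : Type} [TopologicalSpace M] [ChartedSpace H M] [IsManifold I ∞ M]

/-- The working form of a connection. -/
def Spec.Conn.to (A : Spec.Conn I M (Op N)) : P088.Conn I M N := ⟨A.A, A.skew, A.smooth⟩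

variable [MeasurableSpace M]

theorem IsVol.unique [CompactSpace M] {g : Met I M} {μ₁ μ₂ : Measure M} (h₁ : IsVol g μ₁)
    (h₂ : IsVol g μ₂) : μ₁ = μ₂ := by
  obtain ⟨t, ht⟩ := isCompact_univ.elim_finite_subcover (fun p : M => (extChartAt I p).source)
    isOpen_extChartAt_source fun x _ => mem_iUnion.2 ⟨x, mem_extChartAt_source x⟩
  exact Measure.ext_of_biUnion_eq_univ t.countable_toSet (univ_subset_iff.1 ht)
    fun p _ => (h₁ p).trans (h₂ p).symm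

theorem Spec.SameData.to {Γ : Set M} {g₁ g₂ : P088.Met I M} {A₁ A₂ : Spec.Conn I M (Op N)}
    (h : Spec.SameData bv (fun (T : Op N) a => T a) Γ g₁ g₂ A₁ A₂) :
    ∃ (μ₁ μ₂ : Measure M) (S₁ S₂ : (M → Fb N) → M → Fb N), P088.IsVol g₁ μ₁ ∧ P088.IsVol g₂ μ₂ ∧
      (∀ f, P088.IsTest I Γ f → P088.IsSol g₁ μ₁ A₁.to f (S₁ f)) ∧
      (∀ f, P088.IsTest I Γ f → P088.IsSol g₂ μ₂ A₂.to f (S₂ f)) ∧
      ∀ f h, P088.IsTest I Γ f → P088.IsTest I Γ h →
        P088.form g₁ μ₁ A₁.to (S₁ f) (S₁ h) = P088.form g₂ μ₂ A₂.to (S₂ f) (S₂ h) := by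
  obtain ⟨μ₁, μ₂, S₁, S₂, h1, h2, h3, h4, h5⟩ := h
  exact ⟨μ₁, μ₂, S₁, S₂, h1, h2, fun f hf => ⟨(h3 f hf).1, (h3 f hf).2.1, (h3 f hf).2.2⟩,
    fun f hf => ⟨(h4 f hf).1, (h4 f hf).2.1, (h4 f hf).2.2⟩, h5⟩

end Vale.Agent.P088
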