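import Vale.Agent.P088.Meas

/-! P088: product rules, the energy density, test functions that vanish on the boundary. -/

open Set Filter Bundle Metric Topology MeasureTheory
open scoped Manifold ContDiff RealInnerProductSpace

noncomputable section

namespace Vale.Agent.P088

variable {n N : ℕ} {H : Type} [TopologicalSpace H] {I : ModelWithCorners ℝ (Ec n) H}
  {M : Type} [TopologicalSpace M] [ChartedSpace H M]
  {V : Type} [NormedAddCommGroup V] [InnerProductSpace ℝ V] {u w : M → V} {f : M → ℝ}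

theorem sm_inner (hu : ContMDiff I 𝓘(ℝ, V) ∞ u) (hw : ContMDiff I 𝓘(ℝ, V) ∞ w) :
    ContMDiff I 𝓘(ℝ, ℝ) ∞ fun x => ⟪u x, w x⟫ :=
  (contDiff_inner (𝕜 := ℝ) (E := V)).comp_contMDiff (hu.prodMk_space hw)

theorem sm_smul (hf : ContMDiff I 𝓘(ℝ, ℝ) ∞ f) (hu : ContMDiff I 𝓘(ℝ, V) ∞ u) :
    ContMDiff I 𝓘(ℝ, V) ∞ fun x => f x • u x := hf.smul hu

theorem sm_sub (hu : ContMDiff I 𝓘(ℝ, V) ∞ u) (hw : ContMDiff I 𝓘(ℝ, V) ∞ w) :
    ContMDiff I 𝓘(ℝ, V) ∞ fun x => u x - w x := hu.sub hw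

theorem dif_eq {V : Type} [NormedAddCommGroup V] [NormedSpace ℝ V] {u : M → V} {x : M}
    {L : Ec n →L[ℝ] V} (hu : ContMDiff I 𝓘(ℝ, V) ∞ u) (h : HD I u x L) (v : TangentSpace I x) :
    dif I u x v = L v :=
  congrArg (fun L : Ec n →L[ℝ] V => L v) (HD.eq h hu)

theorem dif_sub (hu : ContMDiff I 𝓘(ℝ, V) ∞ u) (hw : ContMDiff I 𝓘(ℝ, V) ∞ w) (x : M)
    (v : TangentSpace I x) : dif I (fun y => u y - w y) x v = dif I u x v - dif I w x v :=
  have h := HasFDerivWithinAt.sub (HD.of hu x) (HD.of hw x)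
  dif_eq (hu.sub hw) h v

theorem dif_smul (hf : ContMDiff I 𝓘(ℝ, ℝ) ∞ f) (hu : ContMDiff I 𝓘(ℝ, V) ∞ u) (x : M)
    (v : TangentSpace I x) :
    dif I (fun y => f y • u y) x v = f x • dif I u x v + dif I f x v • u x := by
  have h := HasFDerivWithinAt.fun_smul (HD.of hf x) (HD.of hu x)
  rw [extChartAt_to_inv] at h
  exact dif_eq (hf.smul hu) h v

theorem dif_inner (hu : ContMDiff I 𝓘(ℝ, V) ∞ u) (hw : ContMDiff I 𝓘(ℝ, V) ∞ w) (x : M)
    (v : TangentSpace I x) :
    dif I (fun y => ⟪u y, w y⟫) x v = ⟪u x, dif I w x v⟫ + ⟪dif I u x v, w x⟫ := by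
  have h := HasFDerivWithinAt.inner ℝ (HD.of hu x) (HD.of hw x)
  rw [extChartAt_to_inv] at h
  exact dif_eq (sm_inner hu hw) h v

theorem dif_comp {T : ℝ → ℝ} {c : ℝ} (hf : ContMDiff I 𝓘(ℝ, ℝ) ∞ f)
    (hT : ContMDiff I 𝓘(ℝ, ℝ) ∞ fun y => T (f y)) {x : M} (h : HasDerivAt T c (f x))
    (v : TangentSpace I x) : dif I (fun y => T (f y)) x v = c * dif I f x v := by
  have h1 : HasDerivAt T c (f ((extChartAt I x).symm (extChartAt I x x))) := by
    rwa [extChartAt_to_inv]
  have h2 := HasDerivAt.comp_hasFDerivWithinAt (f := fun z => f ((extChartAt I x).symm z))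
    (extChartAt I x x) h1 (HD.of hf x)
  exact dif_eq hT h2 v

theorem dif_zero {V : Type} [NormedAddCommGroup V] [NormedSpace ℝ V] {u : M → V} {x : M} {c : V}
    (h : u =ᶠ[𝓝 x] fun _ => c) : dif I u x = 0 :=
  h.mfderiv_eq.trans mfderiv_const

theorem re_inner (a b : Fb N) : (inner ℂ a b).re = ⟪a, b⟫ := by
  simp [PiLp.inner_apply, Complex.inner]

variable [IsManifold I ∞ M] {g : Met I M} {A : Conn I M N}

theorem Conn.skew_inner (A : Conn I M N) (x : M) (v : TangentSpace I x) (a b : Fb N) :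
    ⟪a, A.A x v b⟫ + ⟪A.A x v a, b⟫ = 0 := by
  rw [← re_inner, ← re_inner, ← ContinuousLinearMap.adjoint_inner_right (A.A x v) a b,
    ← ContinuousLinearMap.star_eq_adjoint, A.skew, show (-A.A x v) b = -A.A x v b from rfl,
    inner_neg_right, Complex.neg_re,
    add_neg_cancel]

theorem cov_sub {u w : M → Fb N} (hu : ContMDiff I 𝓘(ℝ, Fb N) ∞ u) (hw : ContMDiff I 𝓘(ℝ, Fb N) ∞ w)
    (x : M) (v : TangentSpace I x) : cov A (fun y => u y - w y) x v = cov A u x v - cov A w x v := by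
  rw [cov, cov, cov, dif_sub hu hw, map_sub]
  abel

theorem cov_smul {u : M → Fb N} (hf : ContMDiff I 𝓘(ℝ, ℝ) ∞ f) (hu : ContMDiff I 𝓘(ℝ, Fb N) ∞ u)
    (x : M) (v : TangentSpace I x) :
    cov A (fun y => f y • u y) x v = f x • cov A u x v + dif I f x v • u x := by
  rw [cov, cov, dif_smul hf hu, ContinuousLinearMap.map_smul_of_tower, smul_add]
  abel

theorem dif_inner_cov (A : Conn I M N) {u w : M → Fb N} (hu : ContMDiff I 𝓘(ℝ, Fb N) ∞ u)
    (hw : ContMDiff I 𝓘(ℝ, Fb N) ∞ w) (x : M) (v : TangentSpace I x) :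
    dif I (fun y => ⟪u y, w y⟫) x v = ⟪u x, cov A w x v⟫ + ⟪cov A u x v, w x⟫ := by
  rw [dif_inner hu hw, cov, cov, inner_add_right, inner_add_left]
  linarith [A.skew_inner x v (u x) (w x)]

/-- The energy density. -/
def en (g : Met I M) (P Q : ∀ x : M, TangentSpace I x → V) (x : M) : ℝ :=
  ipm (gi g x) (fun i => P x (bv i)) fun i => Q x (bv i)

theorem en_cont (g : Met I M) {P Q : ∀ x : M, TangentSpace I x → V} (hP : Fld P) (hQ : Fld Q) :
    Continuous (en g P Q) :=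
  ctr_cont g hP hQ (innerₗ V) continuous_inner

theorem en_chart (g : Met I M) {P Q : ∀ x : M, TangentSpace I x → V} (hP : Fld P) (hQ : Fld Q)
    {p : M} {z : Ec n} (hz : z ∈ (extChartAt I p).target) :
    en g P Q ((extChartAt I p).symm z) =
      ipm (gm g p z)⁻¹ (fun i => P _ (fr I p z (bv i))) fun i => Q _ (fr I p z (bv i)) :=
  ctr_chart g hP hQ (innerₗ V) hz

theorem Fld.zero {P : ∀ x : M, TangentSpace I x → V} (hP : Fld P) {x : M}
    (h : ∀ i, P x (bv i) = 0) (v : TangentSpace I x) : P x v = 0 := by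
  have h1 : (hP.lin x).mk' _ (∑ k, (show Ec n from v) k • (show TangentSpace I x from bv k)) = 0 := by
    rw [map_sum]
    exact Finset.sum_eq_zero fun k _ => by rw [map_smul, IsLinearMap.mk'_apply, h, smul_zero]
  exact (congrArg (P x) (bv_sum v)).trans h1

variable [MeasurableSpace M] [BorelSpace M] [CompactSpace M] {μ : Measure M}

theorem IsVol.int (hv : IsVol g μ) {W : Type} [NormedAddCommGroup W] [SecondCountableTopology W]
    {F : M → W} (hF : Continuous F) : Integrable F μ :=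
  have := hv.finite
  hF.integrable_of_hasCompactSupport (HasCompactSupport.of_compactSpace F)

theorem IsVol.eq_zero (hv : IsVol g μ) {F : M → ℝ} (hF : Continuous F) (h0 : ∀ x, 0 ≤ F x)
    (h : ∫ x, F x ∂μ ≤ 0) (x : M) : F x = 0 := by
  have := hv.finite
  have := hv.openPos
  by_contra h1
  exact (hF.integral_pos_of_hasCompactSupport_nonneg_nonzero (μ := μ)
    (HasCompactSupport.of_compactSpace F) h0 h1).not_ge h

theorem form_re (hv : IsVol g μ) {u w : M → Fb N} (hu : ContMDiff I 𝓘(ℝ, Fb N) ∞ u)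
    (hw : ContMDiff I 𝓘(ℝ, Fb N) ∞ w) :
    (form g μ A u w).re = ∫ x, en g (cov A u) (cov A w) x ∂μ := by
  have h := hv.int (ctr_cont g (Fld.cov A hu) (Fld.cov A hw)
    (LinearMap.mk₂ ℝ (fun a b : Fb N => inner ℂ a b) inner_add_left
      (fun c a b => inner_smul_real_left a b c) inner_add_right
      fun c a b => inner_smul_real_right a b c) continuous_inner)
  refine (integral_re h).symm.trans (integral_congr_ae (ae_of_all _ fun x => ?_))
  simp only [en, ipm, RCLike.re_to_complex, Complex.re_sum, Complex.smul_re, LinearMap.mk₂_apply,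
    re_inner, smul_eq_mul]

/-- The weak equation holds for test functions that vanish on the boundary. -/
theorem IsSol.test (hv : IsVol g μ) {b u ζ : M → Fb N} (h : IsSol g μ A b u)
    (hζ : ContMDiff I 𝓘(ℝ, Fb N) ∞ ζ) (h0 : ∀ x ∈ I.boundary M, ζ x = 0) :
    ∫ x, en g (cov A u) (cov A ζ) x ∂μ = 0 := by
  have hρ := sm_inner hζ hζ
  have hθ : ContDiff ℝ ∞ fun t : ℝ => Real.smoothTransition (t - 1) :=
    Real.smoothTransition.contDiff.comp (contDiff_id.sub contDiff_const)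
  obtain ⟨θ, eθ⟩ : ∃ θ : ℝ → ℝ, θ = fun t : ℝ => Real.smoothTransition (t - 1) := ⟨_, rfl⟩
  rw [← eθ] at hθ
  have t0 : ∀ t ≤ 1, θ t = 0 := fun t ht => by
    rw [eθ]; exact Real.smoothTransition.zero_of_nonpos (sub_nonpos.2 ht)
  have t1 : ∀ t, 2 ≤ t → θ t = 1 := fun t ht => by
    rw [eθ]; exact Real.smoothTransition.one_of_one_le (by linarith)
  have t2 : ∀ t, |θ t| ≤ 1 := fun t => by
    rw [eθ, abs_of_nonneg (Real.smoothTransition.nonneg _)]; exact Real.smoothTransition.le_one _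
  have t3 : ∀ t, 2 < t → deriv θ t = 0 := fun t ht =>
    (EventuallyEq.deriv_eq (mem_of_superset (lt_mem_nhds ht) fun s hs => t1 s (le_of_lt hs))).trans
      (deriv_const t 1)
  obtain ⟨C, hC⟩ := (isCompact_Icc (a := (0 : ℝ)) (b := 2)).exists_bound_of_continuousOn
    (f := fun t => deriv θ t * t) ((hθ.continuous_deriv (by simp)).mul continuous_id).continuousOn
  have t4 : ∀ t, 0 ≤ t → |deriv θ t * t| ≤ |C| := fun t ht => by
    by_cases h2 : t ≤ 2
    · exact (hC t ⟨ht, h2⟩).trans (le_abs_self C)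
    · rw [t3 t (not_le.1 h2), zero_mul, abs_zero]; exact abs_nonneg C
  have hχ : ∀ k : ℕ, ContMDiff I 𝓘(ℝ, ℝ) ∞ fun x => θ (k * ⟪ζ x, ζ x⟫) := fun k =>
    (hθ.comp (contDiff_const.mul contDiff_id)).comp_contMDiff hρ
  have e : ∀ (k : ℕ) x, en g (cov A u) (cov A fun x => θ (k * ⟪ζ x, ζ x⟫) • ζ x) x =
      θ (k * ⟪ζ x, ζ x⟫) * en g (cov A u) (cov A ζ) x + deriv θ (k * ⟪ζ x, ζ x⟫) * k *
        ipm (gi g x) (fun i => cov A u x (bv i)) fun i => (2 * ⟪cov A ζ x (bv i), ζ x⟫) • ζ x := by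
    intro k x
    have d := (hθ.differentiable (by simp) (k * ⟪ζ x, ζ x⟫)).hasDerivAt.comp (⟪ζ x, ζ x⟫)
      ((hasDerivAt_id (⟪ζ x, ζ x⟫)).const_mul (k : ℝ))
    rw [en, en, ← ipm_smul_right, ← ipm_smul_right, ← ipm_add_right]
    refine congrArg _ (funext fun i => ?_)
    rw [cov_smul (hχ k) hζ x (bv i), dif_comp (T := fun t => θ (k * t)) hρ (hχ k) d (bv i),
      dif_inner_cov A hζ hζ x (bv i), real_inner_comm (cov A ζ x (bv i)), smul_smul, mul_one, two_mul]
  have i0 : ∀ k : ℕ, ∫ x, en g (cov A u) (cov A fun x => θ (k * ⟪ζ x, ζ x⟫) • ζ x) x ∂μ = 0 := by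
    intro k
    rw [← form_re hv h.smooth (sm_smul (hχ k) hζ), h.eq _ (sm_smul (hχ k) hζ) ?_, Complex.zero_re]
    refine (closure_minimal (t := {x | 1 ≤ k * ⟪ζ x, ζ x⟫}) (fun x hx => ?_)
      (isClosed_le continuous_const (continuous_const.mul hρ.continuous))).trans fun x hx => ?_
    · by_contra h1
      exact hx (by simp only [t0 _ (not_le.1 h1).le, zero_smul])
    · rw [← I.compl_boundary]
      intro h1
      rw [mem_ofPred_eq, h0 x h1, inner_zero_left, mul_zero] at hx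
      exact not_le.2 zero_lt_one hx
  have cu := en_cont g (Fld.cov A h.smooth) (Fld.cov A h.smooth)
  have cζ := en_cont g (Fld.cov A hζ) (Fld.cov A hζ)
  have c2 := en_cont g (Fld.cov A h.smooth) (Fld.cov A hζ)
  have key := tendsto_integral_of_dominated_convergence (μ := μ)
    (F := fun (k : ℕ) x => en g (cov A u) (cov A fun x => θ (k * ⟪ζ x, ζ x⟫) • ζ x) x)
    (f := en g (cov A u) (cov A ζ)) (fun x => |en g (cov A u) (cov A ζ) x| +
      |C| * (en g (cov A u) (cov A u) x + en g (cov A ζ) (cov A ζ) x))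
    (fun k => (en_cont g (Fld.cov A h.smooth) (Fld.cov A (sm_smul (hχ k) hζ))).aestronglyMeasurable)
    (hv.int (c2.abs.add (continuous_const.mul (cu.add cζ)))) (fun k => ae_of_all _ fun x => ?_) ?_
  · simp only [i0] at key
    exact tendsto_nhds_unique key tendsto_const_nhds ▸ rfl
  · have p := gi_pos g x
    have n1 := ipm_nonneg p fun i => cov A u x (bv i)
    have n2 := ipm_nonneg p fun i => cov A ζ x (bv i)
    rw [e, Real.norm_eq_abs]
    refine (abs_add_le _ _).trans (add_le_add ?_ ?_)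
    · rw [abs_mul]
      exact mul_le_of_le_one_left (abs_nonneg _) (t2 _)
    · rcases (real_inner_self_nonneg (x := ζ x)).eq_or_lt with h1 | h1
      · rw [inner_self_eq_zero.1 h1.symm]
        simp only [smul_zero, ipm, inner_zero_right, mul_zero, Finset.sum_const_zero, abs_zero]
        exact mul_nonneg (abs_nonneg C) (add_nonneg n1 n2)
      have h2 := ipm_cs p (fun i => cov A u x (bv i))
        fun i => (⟪ζ x, ζ x⟫)⁻¹ • ⟪cov A ζ x (bv i), ζ x⟫ • ζ x
      have h3 := ipm_nonneg p fun i => ⟪ζ x, ζ x⟫ • cov A ζ x (bv i) - ⟪cov A ζ x (bv i), ζ x⟫ • ζ x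
      have h4 : ipm (gi g x) (fun i => ⟪cov A ζ x (bv i), ζ x⟫ • ζ x)
          (fun i => ⟪cov A ζ x (bv i), ζ x⟫ • ζ x) = ⟪ζ x, ζ x⟫ * ipm (gi g x)
            (fun i => ⟪cov A ζ x (bv i), ζ x⟫) fun i => ⟪cov A ζ x (bv i), ζ x⟫ := by
        rw [ipm_tens, ipm_comm p, ← ipm_mul_right]
        simp only [real_inner_smul_left, mul_comm]
      rw [ipm_pic p, ipm_mul_right] at h3
      rw [ipm_smul_left, ipm_smul_right, ipm_smul_right, h4] at h2
      simp only [mul_smul]
      rw [ipm_smul_right]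
      unfold en
      generalize ipm (gi g x) (fun i => cov A u x (bv i)) (fun i => ⟪cov A ζ x (bv i), ζ x⟫ • ζ x) = a
        at h2 ⊢
      generalize ipm (gi g x) (fun i => ⟪cov A ζ x (bv i), ζ x⟫) (fun i => ⟪cov A ζ x (bv i), ζ x⟫) = b
        at h2 h3
      generalize ipm (gi g x) (fun i => cov A ζ x (bv i)) (fun i => cov A ζ x (bv i)) = c at h3 ⊢
      have h5 := t4 (k * ⟪ζ x, ζ x⟫) (mul_nonneg (Nat.cast_nonneg k) h1.le)
      generalize ⟪ζ x, ζ x⟫ = ρ at h1 h2 h3 h5 ⊢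
      have h6 : ρ⁻¹ * (ρ⁻¹ * (ρ * b)) ≤ c := by
        rw [inv_mul_cancel_left₀ h1.ne', inv_mul_le_iff₀ h1]
        nlinarith
      have h7 : deriv θ (k * ρ) * k * (2 * a) = deriv θ (k * ρ) * (k * ρ) * (2 * (ρ⁻¹ * a)) := by
        field_simp
      rw [h7, abs_mul, abs_mul 2, abs_two]
      exact mul_le_mul h5 (h2.trans (add_le_add le_rfl h6)) (by positivity) (abs_nonneg C)
  · filter_upwards [hv.ae_dif hζ] with x hx
    simp only [e]
    rcases (real_inner_self_nonneg (x := ζ x)).eq_or_lt with h1 | h1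
    · have h2 := inner_self_eq_zero.1 h1.symm
      have h4 : ∀ v, cov A ζ x v = 0 := fun v => by rw [cov, hx h2, h2, map_zero, add_zero]
      have h3 : ∀ i, cov A ζ x (bv i) = 0 := fun i => h4 _
      simp only [en, ipm, h3, inner_zero_right, inner_zero_left, mul_zero, zero_smul,
        Finset.sum_const_zero, add_zero]
      exact tendsto_const_nhds
    · refine tendsto_const_nhds.congr' ?_
      filter_upwards [(tendsto_natCast_atTop_atTop.atTop_mul_const h1).eventually_gt_atTop 2]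
        with k hk
      rw [t1 _ hk.le, t3 _ hk, one_mul, zero_mul, zero_mul, add_zero]

end Vale.Agent.P088
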