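import Vale.Agent.P088.Alg

/-! P088: calculus in charts. -/

open Set Filter Bundle Metric Topology
open scoped Manifold ContDiff

noncomputable section

namespace Vale.Agent.P088

variable {n N : ℕ} {H : Type} [TopologicalSpace H] {I : ModelWithCorners ℝ (Ec n) H}
  {M : Type} [TopologicalSpace M] [ChartedSpace H M] [IsManifold I ∞ M]
  {V : Type} [NormedAddCommGroup V] [NormedSpace ℝ V] {u : M → V} {p x : M} {z : Ec n}

omit [IsManifold I ∞ M] in
theorem symm_mem (hz : z ∈ (extChartAt I p).target) :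
    (extChartAt I p).symm z ∈ (chartAt H p).source := by
  rw [← extChartAt_source I]
  exact (extChartAt I p).map_target hz

theorem fr_eq (hz : z ∈ (extChartAt I p).target) : fr I p z =
    (trivializationAt (Ec n) (TangentSpace I (M := M)) p).symmL ℝ ((extChartAt I p).symm z) := by
  have k := TangentBundle.symmL_trivializationAt (I := I) (symm_mem hz)
  rw [(extChartAt I p).right_inv hz] at k
  exact k.symm

theorem sec_smooth (p : M) (v : Ec n) : ContMDiffOn 𝓘(ℝ, Ec n) I.tangent ∞
    (fun z => (⟨(extChartAt I p).symm z, fr I p z v⟩ : TangentBundle I M)) (extChartAt I p).target := by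
  have hb : ∀ a ∈ (extChartAt I p).target, (extChartAt I p).symm a ∈
      (trivializationAt (Ec n) (TangentSpace I (M := M)) p).baseSet := fun a ha => by
    rw [TangentBundle.trivializationAt_baseSet]
    exact symm_mem ha
  rw [ModelWithCorners.tangent, (trivializationAt (Ec n) (TangentSpace I (M := M)) p).contMDiffOn_iff
    fun a ha => (Bundle.Trivialization.mem_source _).2 (hb a ha)]
  refine ⟨contMDiffOn_extChartAt_symm p, (contMDiffOn_const (c := v)).congr fun a ha => ?_⟩
  rw [fr_eq ha, Bundle.Trivialization.symmL_apply _ (hb a ha),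
    Bundle.Trivialization.apply_mk_symm _ (hb a ha)]

theorem fr_bij (hz : z ∈ (extChartAt I p).target) : Function.Bijective (fr I p z) := by
  obtain ⟨e, he⟩ := isInvertible_mfderivWithin_extChartAt_symm (I := I) hz
  have h := e.bijective
  rw [← ContinuousLinearEquiv.coe_coe, he] at h
  exact h

theorem dif_smooth (hu : ContMDiff I 𝓘(ℝ, V) ∞ u) :
    ContMDiff I.tangent 𝓘(ℝ, V) ∞ fun q : TangentBundle I M => dif I u q.1 q.2 :=
  (contMDiff_snd_tangentBundle_modelSpace V 𝓘(ℝ, V)).comp (hu.contMDiff_tangentMap le_rfl)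

theorem chart_fderiv (hu : ContMDiff I 𝓘(ℝ, V) ∞ u) (hz : z ∈ (extChartAt I p).target) :
    HasFDerivWithinAt (fun z => u ((extChartAt I p).symm z))
      ((dif I u ((extChartAt I p).symm z)).comp (fr I p z)) (range I) z :=
  ((hu.mdifferentiableAt (by simp)).hasMFDerivAt.comp_hasMFDerivWithinAt z
    (mdifferentiableWithinAt_extChartAt_symm hz).hasMFDerivWithinAt).hasFDerivWithinAt

theorem chart_contDiff (hu : ContMDiff I 𝓘(ℝ, V) ∞ u) (p : M) :
    ContDiffOn ℝ ∞ (fun z => u ((extChartAt I p).symm z)) (extChartAt I p).target :=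
  (hu.comp_contMDiffOn (contMDiffOn_extChartAt_symm p)).contDiffOn

/-- The metric in the chart at `p`. -/
abbrev gm (g : Met I M) (p : M) (z : Ec n) : Matrix (Fin n) (Fin n) ℝ :=
  gram fun v w => g.inner ((extChartAt I p).symm z) (fr I p z v) (fr I p z w)

/-- The inverse metric. -/
abbrev gi (g : Met I M) (x : M) : Matrix (Fin n) (Fin n) ℝ := (gram fun v v' => g.inner x v v')⁻¹

theorem gm_smooth (g : Met I M) (p : M) (i j : Fin n) :
    ContDiffOn ℝ ∞ (fun z => gm g p z i j) (extChartAt I p).target := by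
  let _ : RiemannianBundle fun x : M => TangentSpace I x := ⟨g.toRiemannianMetric⟩
  exact (ContMDiffOn.inner_bundle (F := Ec n) (IB := I) (E := fun x : M => TangentSpace I x)
    (sec_smooth p (bv i)) (sec_smooth p (bv j))).contDiffOn

theorem gm_pos (g : Met I M) (hz : z ∈ (extChartAt I p).target) : (gm g p z).PosDef :=
  gram_posDef (g.inner _).toLinearMap₁₂ (g.symm _) (g.pos _) (fr I p z).toLinearMap (fr_bij hz).1

theorem gi_pos (g : Met I M) (x : M) : (gi g x).PosDef :=
  (gram_posDef (g.inner x).toLinearMap₁₂ (g.symm _) (g.pos _) LinearMap.id fun _ _ h => h).inv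

theorem contDiffOn_det {s : Set (Ec n)} {f : Ec n → Matrix (Fin n) (Fin n) ℝ}
    (h : ∀ i j, ContDiffOn ℝ ∞ (fun z => f z i j) s) : ContDiffOn ℝ ∞ (fun z => (f z).det) s := by
  simp only [Matrix.det_apply']
  exact ContDiffOn.sum fun σ _ => contDiffOn_const.mul (contDiffOn_prod fun i _ => h _ _)

theorem gm_inv_smooth (g : Met I M) (p : M) (i j : Fin n) :
    ContDiffOn ℝ ∞ (fun z => (gm g p z)⁻¹ i j) (extChartAt I p).target := by
  simp only [Matrix.inv_def, Ring.inverse_eq_inv', Matrix.smul_apply, smul_eq_mul,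
    Matrix.adjugate_apply]
  refine ((contDiffOn_det (gm_smooth g p)).inv fun z hz => (gm_pos g hz).det_pos.ne').mul
    (contDiffOn_det fun k l => ?_)
  simp only [Matrix.updateRow_apply]
  split_ifs
  exacts [contDiffOn_const, gm_smooth g p k l]

/-- Continuous vector valued one-forms. -/
structure Fld (P : ∀ x : M, TangentSpace I x → V) : Prop where
  lin : ∀ x, IsLinearMap ℝ (P x)
  cont : Continuous fun q : TangentBundle I M => P q.1 q.2

section ctr
variable {W : Type} [NormedAddCommGroup W] [NormedSpace ℝ W] {P Q : ∀ x : M, TangentSpace I x → V}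

theorem ctr_chart (g : Met I M) (hP : Fld P) (hQ : Fld Q) (Ψ : V →ₗ[ℝ] V →ₗ[ℝ] W)
    (hz : z ∈ (extChartAt I p).target) :
    ∑ i, ∑ j, gi g ((extChartAt I p).symm z) i j •
        Ψ (P ((extChartAt I p).symm z) (bv i)) (Q ((extChartAt I p).symm z) (bv j)) =
      ∑ i, ∑ j, (gm g p z)⁻¹ i j • Ψ (P _ (fr I p z (bv i))) (Q _ (fr I p z (bv j))) :=
  (ctr_change (g.inner ((extChartAt I p).symm z)).toLinearMap₁₂ (fr I p z).toLinearMap (gm_pos g hz)
    (Ψ.compl₁₂ ((hP.lin ((extChartAt I p).symm z)).mk' _)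
      ((hQ.lin ((extChartAt I p).symm z)).mk' _))).symm

theorem ctr_cont (g : Met I M) (hP : Fld P) (hQ : Fld Q) (Ψ : V →ₗ[ℝ] V →ₗ[ℝ] W)
    (hΨ : Continuous fun q : V × V => Ψ q.1 q.2) :
    Continuous fun x => ∑ i, ∑ j, gi g x i j • Ψ (P x (bv i)) (Q x (bv j)) := by
  refine continuous_iff_continuousAt.2 fun p => ?_
  have h1 : ContinuousOn (fun z => ∑ i, ∑ j, (gm g p z)⁻¹ i j •
      Ψ (P _ (fr I p z (bv i))) (Q _ (fr I p z (bv j)))) (extChartAt I p).target :=
    continuousOn_finsetSum _ fun i _ => continuousOn_finsetSum _ fun j _ =>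
      (gm_inv_smooth g p i j).continuousOn.smul (hΨ.comp_continuousOn
        ((hP.cont.comp_continuousOn (sec_smooth p (bv i)).continuousOn).prodMk
          (hQ.cont.comp_continuousOn (sec_smooth p (bv j)).continuousOn)))
  have h2 := (h1.congr fun z hz => ctr_chart g hP hQ Ψ hz).comp (continuousOn_extChartAt p)
    (extChartAt I p).mapsTo
  refine (h2.congr fun x hx => ?_).continuousAt (extChartAt_source_mem_nhds p)
  have e : ∀ y, y = x → ∑ i, ∑ j, gi g x i j • Ψ (P x (bv i)) (Q x (bv j)) =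
      ∑ i, ∑ j, gi g y i j • Ψ (P y (bv i)) (Q y (bv j)) := fun y hy => by rw [hy]
  exact e _ ((extChartAt I p).left_inv hx)

end ctr

theorem Fld.dif (hu : ContMDiff I 𝓘(ℝ, V) ∞ u) : Fld fun x v => dif I u x v :=
  ⟨fun x => (P088.dif I u x).toLinearMap.isLinear, (dif_smooth hu).continuous⟩

theorem Fld.cov (A : Conn I M N) {u : M → Fb N} (hu : ContMDiff I 𝓘(ℝ, Fb N) ∞ u) :
    Fld (cov A u) := by
  refine ⟨fun x => ⟨fun v w => ?_, fun c v => ?_⟩, (dif_smooth hu).continuous.add
    (A.smooth.continuous.clm_apply (hu.continuous.comp (FiberBundle.continuous_proj _ _)))⟩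
  · simp only [P088.cov, map_add, add_apply]
    abel
  · simp only [P088.cov, map_smul, smul_apply, smul_add]

omit [IsManifold I ∞ M] in
theorem exists_ball (p : M) :
    ∃ r > 0, closedBall (extChartAt I p p) r ∩ range I ⊆ (extChartAt I p).target :=
  (nhdsWithin_hasBasis nhds_basis_closedBall (range I)).mem_iff.1
    (extChartAt_target_mem_nhdsWithin p)

theorem interior_iff (hx : x ∈ (extChartAt I p).source) :
    x ∈ I.interior M ↔ extChartAt I p x ∈ interior (range I) := by
  have h := I.isInteriorPoint_iff_of_mem_atlas (n := ∞) (by simp) (chart_mem_atlas H p)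
    (by rwa [extChartAt_source] at hx)
  refine h.trans ⟨fun h1 => interior_mono (extChartAt_target_subset_range p) h1, fun h1 => ?_⟩
  have h2 := extChartAt_target_mem_nhdsWithin_of_mem ((extChartAt I p).map_source hx)
  rw [nhdsWithin_eq_nhds.2 (mem_interior_iff_mem_nhds.1 h1)] at h2
  exact mem_interior_iff_mem_nhds.2 h2

omit [IsManifold I ∞ M] in
theorem ball_nhds (p : M) {r : ℝ} (hr : 0 < r) :
    (extChartAt I p).source ∩ extChartAt I p ⁻¹' ball (extChartAt I p p) r ∈ 𝓝 p :=
  inter_mem (extChartAt_source_mem_nhds p) (continuousAt_extChartAt p (ball_mem_nhds _ hr))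

/-- A function with zero differential is constant. -/
theorem const_of_dif [PreconnectedSpace M] (hu : ContMDiff I 𝓘(ℝ, V) ∞ u)
    (h0 : ∀ x v, dif I u x v = 0) (x y : M) : u x = u y := by
  refine IsLocallyConstant.apply_eq_of_preconnectedSpace
    ((IsLocallyConstant.iff_eventually_eq u).2 fun p => ?_) x y
  obtain ⟨r, hr, hs⟩ := exists_ball (I := I) p
  filter_upwards [ball_nhds (I := I) p hr] with q hq
  have h1 := ((convex_closedBall (extChartAt I p p) r).inter
    I.convex_range).norm_image_sub_le_of_norm_hasFDerivWithin_le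
    (f := fun z => u ((extChartAt I p).symm z)) (C := 0)
    (fun z hz => (chart_fderiv hu (hs hz)).mono inter_subset_right)
    (fun z _ => (ContinuousLinearMap.opNorm_le_bound _ le_rfl fun v => by
      rw [ContinuousLinearMap.comp_apply, h0, norm_zero, zero_mul]))
    ⟨mem_closedBall_self hr.le, mem_range_self _⟩ ⟨ball_subset_closedBall hq.2, mem_range_self _⟩
  rw [zero_mul, norm_le_zero_iff, sub_eq_zero, (extChartAt I p).left_inv hq.1,
    extChartAt_to_inv] at h1
  exact h1

theorem dense_interior : Dense (I.interior M) := by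
  intro p
  rw [mem_closure_iff_nhds]
  intro t ht
  have h1 : (extChartAt I p).symm ⁻¹' t ∈ 𝓝 (extChartAt I p p) :=
    extChartAt_preimage_mem_nhds ht
  obtain ⟨z, h2, h3⟩ := mem_closure_iff_nhds.1
    (extChartAt_target_subset_closure_interior (mem_extChartAt_target (I := I) p)) _ h1
  refine ⟨_, h2, (interior_iff ((extChartAt I p).map_target (interior_subset h3))).2 ?_⟩
  rw [(extChartAt I p).right_inv (interior_subset h3)]
  exact interior_mono (extChartAt_target_subset_range p) h3

/-- Derivatives in the chart at the point. -/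
def HD (I : ModelWithCorners ℝ (Ec n) H) (u : M → V) (x : M) (L : Ec n →L[ℝ] V) : Prop :=
  HasFDerivWithinAt (fun z => u ((extChartAt I x).symm z)) L (range I) (extChartAt I x x)

omit [IsManifold I ∞ M] in
theorem HD.of (hu : ContMDiff I 𝓘(ℝ, V) ∞ u) (x : M) : HD I u x (dif I u x) :=
  (hu.mdifferentiableAt (by simp)).hasMFDerivAt.2

omit [IsManifold I ∞ M] in
theorem HD.eq {L : Ec n →L[ℝ] V} (h : HD I u x L) (hu : ContMDiff I 𝓘(ℝ, V) ∞ u) :
    dif I u x = L :=
  (I.uniqueDiffOn _ (mem_range_self _)).eq (HD.of hu x) h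

omit [IsManifold I ∞ M] in
theorem HD.comp₂ {V' W : Type} [NormedAddCommGroup V'] [NormedSpace ℝ V'] [NormedAddCommGroup W]
    [NormedSpace ℝ W] {w : M → V'} {L : Ec n →L[ℝ] V} {L' : Ec n →L[ℝ] V'} (h : HD I u x L)
    (h' : HD I w x L') {Ψ : V × V' → W} {Ψ' : V × V' →L[ℝ] W} (hΨ : HasFDerivAt Ψ Ψ' (u x, w x)) :
    HD I (fun y => Ψ (u y, w y)) x (Ψ'.comp (L.prod L')) := by
  refine HasFDerivAt.comp_hasFDerivWithinAt _ ?_ (HasFDerivWithinAt.prodMk h h')
  rwa [extChartAt_to_inv]

end Vale.Agent.P088
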