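import Vale.Agent.P088.Alg

/-! P088: the strong maximum principle for weak solutions. -/

open Set Filter Metric Topology MeasureTheory
open scoped ContDiff

noncomputable section

namespace Vale.Agent.P088

variable {n : ℕ} {Ω K : Set (Ec n)} {a : Ec n → Matrix (Fin n) (Fin n) ℝ} {u : Ec n → ℝ}

theorem hopf_cont (hΩ : IsOpen Ω) (hK : IsCompact K) (hs : K ⊆ Ω) {f : Ec n → ℝ}
    (hf : ContinuousOn f Ω) (h0 : ∀ z ∉ K, f z = 0) : Continuous f ∧ HasCompactSupport f := by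
  refine ⟨continuous_iff_continuousAt.2 fun z => ?_, HasCompactSupport.intro hK h0⟩
  by_cases hz : z ∈ K
  · exact hf.continuousAt (hΩ.mem_nhds (hs hz))
  · exact continuousAt_const.congr
      (mem_of_superset (hK.isClosed.isOpen_compl.mem_nhds hz) fun y hy => (h0 y hy).symm)

theorem hopf_int (hΩ : IsOpen Ω) (hK : IsCompact K) (hs : K ⊆ Ω) {f : Ec n → ℝ}
    (hf : ContinuousOn f Ω) (h0 : ∀ z ∉ K, f z = 0) : Integrable f :=
  (hopf_cont hΩ hK hs hf h0).1.integrable_of_hasCompactSupport (hopf_cont hΩ hK hs hf h0).2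

theorem hopf_d (hΩ : IsOpen Ω) {f : Ec n → ℝ} (hf : ContDiffOn ℝ ∞ f Ω) (v : Ec n) :
    ContDiffOn ℝ ∞ (fun z => fderiv ℝ f z v) Ω :=
  (hf.fderiv_of_isOpen hΩ le_rfl).clm_apply contDiffOn_const

/-- Comparison with a strict subsolution. -/
theorem hopf_cmp (hΩ : IsOpen Ω) (hK : IsCompact K) (hs : K ⊆ Ω)
    (ha : ∀ i j, ContDiffOn ℝ ∞ (fun z => a z i j) Ω) (hp : ∀ z ∈ Ω, (a z).PosDef)
    (hu : ContDiffOn ℝ ∞ u Ω) (hw : ∀ ζ : Ec n → ℝ, ContDiff ℝ ∞ ζ → HasCompactSupport ζ →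
      tsupport ζ ⊆ Ω → ∫ z, ipm (a z) (fun i => fderiv ℝ u z (bv i)) (fun i => fderiv ℝ ζ z (bv i)) = 0)
    {w : Ec n → ℝ} (h1 : ContDiff ℝ ∞ w) (h2 : ∀ z ∈ Ω, z ∉ K → w z ≤ u z)
    (h3 : ∀ z ∈ K, 0 < ∑ j, fderiv ℝ (fun z => ∑ i, a z i j * fderiv ℝ w z (bv i)) z (bv j)) :
    ∀ z ∈ K, w z ≤ u z := by
  classical
  obtain ⟨ζ, hζ⟩ : ∃ ζ : Ec n → ℝ, ζ = Ω.indicator fun z => expNegInvGlue (w z - u z) := ⟨_, rfl⟩
  have z0 : ∀ z ∉ K, ζ z = 0 := fun z hz => by
    rw [hζ]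
    by_cases h : z ∈ Ω
    · rw [indicator_of_mem h, expNegInvGlue.zero_of_nonpos (sub_nonpos.2 (h2 z h hz))]
    · exact indicator_of_notMem h _
  have z1 : ∀ z ∉ K, ζ =ᶠ[𝓝 z] fun _ => 0 := fun z hz =>
    mem_of_superset (hK.isClosed.isOpen_compl.mem_nhds hz) z0
  have z2 : ∀ z ∈ Ω, ζ =ᶠ[𝓝 z] fun z => expNegInvGlue (w z - u z) := fun z hz =>
    mem_of_superset (hΩ.mem_nhds hz) fun y hy => by rw [hζ]; exact indicator_of_mem hy _
  have z3 : ContDiff ℝ ∞ ζ := contDiff_iff_contDiffAt.2 fun z => by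
    by_cases hz : z ∈ K
    · exact (expNegInvGlue.contDiff.contDiffAt.comp z (h1.contDiffAt.sub
        (hu.contDiffAt (hΩ.mem_nhds (hs hz))))).congr_of_eventuallyEq (z2 z (hs hz))
    · exact contDiffAt_const.congr_of_eventuallyEq (z1 z hz)
  have z4 : tsupport ζ ⊆ K := closure_minimal (fun z hz => by_contra fun h => hz (z0 z h)) hK.isClosed
  have z5 : ∀ z ∉ K, ∀ v, fderiv ℝ ζ z v = 0 := fun z hz v => by
    rw [(z1 z hz).fderiv_eq]
    simp
  have z6 : ∀ z, 0 ≤ ζ z := fun z => by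
    rw [hζ]
    exact indicator_nonneg (fun _ _ => expNegInvGlue.nonneg _) z
  have hX : ∀ j, ContDiffOn ℝ ∞ (fun z => ∑ i, a z i j * fderiv ℝ w z (bv i)) Ω := fun j =>
    ContDiffOn.sum fun i _ => (ha i j).mul (hopf_d hΩ h1.contDiffOn _)
  have dζ : ∀ j, ContinuousOn (fun z => fderiv ℝ ζ z (bv j)) Ω := fun j =>
    (hopf_d hΩ z3.contDiffOn _).continuousOn
  have i1 : ∀ j, Integrable fun z =>
      fderiv ℝ (fun z => ∑ i, a z i j * fderiv ℝ w z (bv i)) z (bv j) * ζ z := fun j =>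
    hopf_int hΩ hK hs ((hopf_d hΩ (hX j) _).continuousOn.mul z3.continuous.continuousOn)
      fun z hz => by rw [z0 z hz, mul_zero]
  have i2 : ∀ j, Integrable fun z => (∑ i, a z i j * fderiv ℝ w z (bv i)) * fderiv ℝ ζ z (bv j) :=
    fun j => hopf_int hΩ hK hs ((hX j).continuousOn.mul (dζ j)) fun z hz => by rw [z5 z hz, mul_zero]
  have e1 : ∀ j, ∫ z, (∑ i, a z i j * fderiv ℝ w z (bv i)) * fderiv ℝ ζ z (bv j) =
      -∫ z, fderiv ℝ (fun z => ∑ i, a z i j * fderiv ℝ w z (bv i)) z (bv j) * ζ z := fun j =>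
    integral_bilinear_hasLineDerivAt_right_eq_neg_left_of_integrable (v := bv j)
      (B := ContinuousLinearMap.mul ℝ ℝ) (i1 j) (i2 j)
      (hopf_int hΩ hK hs ((hX j).continuousOn.mul z3.continuous.continuousOn)
        fun z hz => by simp [z0 z hz])
      (fun z hz => (((hX j).contDiffAt (hΩ.mem_nhds (hs (z4 hz)))).differentiableAt
        (by simp)).hasFDerivAt.hasLineDerivAt _)
      fun z _ => (z3.differentiable (by simp) z).hasFDerivAt.hasLineDerivAt _
  have i3 : Integrable fun z =>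
      ipm (a z) (fun i => fderiv ℝ u z (bv i)) (fun i => fderiv ℝ ζ z (bv i)) := by
    simp only [ipm_real]
    exact hopf_int hΩ hK hs (continuousOn_finsetSum _ fun i _ => continuousOn_finsetSum _ fun j _ =>
      (ha i j).continuousOn.mul ((hopf_d hΩ hu _).continuousOn.mul (dζ j)))
      fun z hz => by simp [z5 z hz]
  have l1 : ∀ z, ipm (a z) (fun i => fderiv ℝ u z (bv i)) (fun i => fderiv ℝ ζ z (bv i)) ≤
      ∑ j, (∑ i, a z i j * fderiv ℝ w z (bv i)) * fderiv ℝ ζ z (bv j) := fun z => by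
    have e : ∑ j, (∑ i, a z i j * fderiv ℝ w z (bv i)) * fderiv ℝ ζ z (bv j) =
        ipm (a z) (fun i => fderiv ℝ w z (bv i)) (fun i => fderiv ℝ ζ z (bv i)) := by
      simp only [ipm_real, Finset.sum_mul, mul_assoc]
      exact Finset.sum_comm
    rw [e, ← sub_nonneg, ← ipm_sub_left]
    by_cases hz : z ∈ K
    · have d1 := (h1.differentiable (by simp) z).hasFDerivAt.sub
        ((hu.contDiffAt (hΩ.mem_nhds (hs hz))).differentiableAt (by simp)).hasFDerivAt
      have d2 := ((expNegInvGlue.contDiff (n := 1)).differentiable (by simp)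
        (w z - u z)).hasDerivAt.comp_hasFDerivAt z d1
      have d3 : fderiv ℝ ζ z = _ := (z2 z (hs hz)).fderiv_eq.trans d2.fderiv
      rw [d3]
      exact (mul_nonneg expNegInvGlue.monotone.deriv_nonneg (ipm_nonneg (hp z (hs hz)) _)).trans_eq
        (ipm_mul_right _ _ _).symm
    · simp [ipm_real, z5 z hz]
  have l2 := integral_mono i3 (integrable_finsetSum _ fun j _ => i2 j) l1
  rw [hw ζ z3 (HasCompactSupport.intro hK z0) (z4.trans hs), integral_finsetSum _ fun j _ => i2 j,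
    Finset.sum_congr rfl fun j _ => e1 j, Finset.sum_neg_distrib,
    ← integral_finsetSum _ fun j _ => i1 j] at l2
  simp only [← Finset.sum_mul] at l2
  intro z hz
  by_contra hlt
  have c1 := hopf_cont hΩ hK hs (f := fun z =>
    (∑ j, fderiv ℝ (fun z => ∑ i, a z i j * fderiv ℝ w z (bv i)) z (bv j)) * ζ z)
    ((continuousOn_finsetSum _ fun j _ => (hopf_d hΩ (hX j) _).continuousOn).mul
      z3.continuous.continuousOn) fun z hz => by rw [z0 z hz, mul_zero]
  have l3 := c1.1.integral_pos_of_hasCompactSupport_nonneg_nonzero (μ := volume) c1.2 (x := z)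
    (fun y => by
      by_cases hy : y ∈ K
      · exact mul_nonneg (h3 y hy).le (z6 y)
      · simp [z0 y hy])
    (mul_ne_zero (h3 z hz).ne' (by
      rw [(z2 z (hs hz)).eq_of_nhds]
      exact (expNegInvGlue.pos_of_pos (sub_pos.2 (not_le.1 hlt))).ne'))
  linarith

/-- A strict subsolution. -/
theorem hopf_sub (hΩ : IsOpen Ω) (hK : IsCompact K) (hs : K ⊆ Ω)
    (ha : ∀ i j, ContDiffOn ℝ ∞ (fun z => a z i j) Ω) (hp : ∀ z ∈ Ω, (a z).PosDef)
    {q : Ec n → ℝ} (hq : ContDiff ℝ ∞ q) (h0 : ∀ z ∈ K, ∃ i, fderiv ℝ q z (bv i) ≠ 0) :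
    ∃ l > 0, ∀ m > 0, ∀ c : ℝ, ∀ z ∈ K, 0 < ∑ j, fderiv ℝ (fun z => ∑ i, a z i j *
      fderiv ℝ (fun z => m * (Real.exp (l * q z) - c)) z (bv i)) z (bv j) := by
  have hY : ∀ j, ContDiffOn ℝ ∞ (fun z => ∑ i, a z i j * fderiv ℝ q z (bv i)) Ω := fun j =>
    ContDiffOn.sum fun i _ => (ha i j).mul (hopf_d hΩ hq.contDiffOn _)
  have e : ∀ z, ∑ j, (∑ i, a z i j * fderiv ℝ q z (bv i)) * fderiv ℝ q z (bv j) =
      ipm (a z) (fun i => fderiv ℝ q z (bv i)) (fun i => fderiv ℝ q z (bv i)) := fun z => by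
    simp only [ipm_real, Finset.sum_mul, mul_assoc]
    exact Finset.sum_comm
  obtain ⟨κ, hκ, h1⟩ := hK.exists_forall_le' (a := 0) ((continuousOn_finsetSum Finset.univ fun j _ =>
    (hY j).continuousOn.mul (hopf_d hΩ hq.contDiffOn (bv j)).continuousOn).mono hs) fun z hz => by
      obtain ⟨i, hi⟩ := h0 z hz
      exact ((ipm_nonneg (hp z (hs hz)) _).lt_of_ne' fun h =>
        hi (ipm_eq_zero (hp z (hs hz)) h i)).trans_eq (e z).symm
  obtain ⟨C, h2⟩ := hK.exists_bound_of_continuousOn ((continuousOn_finsetSum Finset.univ fun j _ =>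
    (hopf_d hΩ (hY j) (bv j)).continuousOn).mono hs)
  refine ⟨(|C| + 1) / κ, by positivity, fun m hm c z hz => ?_⟩
  generalize hl : (|C| + 1) / κ = l
  have hl0 : 0 < l := hl ▸ by positivity
  have d1 : ∀ z, HasFDerivAt (fun z => Real.exp (l * q z))
      (Real.exp (l * q z) • l • fderiv ℝ q z) z := fun z =>
    ((hq.differentiable (by simp) z).hasFDerivAt.const_mul l).exp
  have e1 : ∀ j, (fun z => ∑ i, a z i j * fderiv ℝ (fun z => m * (Real.exp (l * q z) - c)) z (bv i)) =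
      fun z => m * l * (Real.exp (l * q z) * ∑ i, a z i j * fderiv ℝ q z (bv i)) := fun j => by
    funext z
    rw [(((d1 z).sub_const c).const_mul m).fderiv]
    simp only [smul_apply, smul_eq_mul, Finset.mul_sum]
    exact Finset.sum_congr rfl fun i _ => by ring
  have e2 : ∀ j, fderiv ℝ (fun z => m * l * (Real.exp (l * q z) * ∑ i, a z i j * fderiv ℝ q z (bv i)))
      z (bv j) = m * l * Real.exp (l * q z) *
        (l * ((∑ i, a z i j * fderiv ℝ q z (bv i)) * fderiv ℝ q z (bv j)) +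
          fderiv ℝ (fun z => ∑ i, a z i j * fderiv ℝ q z (bv i)) z (bv j)) := fun j => by
    rw [(((d1 z).fun_mul (((hY j).contDiffAt (hΩ.mem_nhds (hs hz))).differentiableAt
      (by simp)).hasFDerivAt).const_mul (m * l)).fderiv]
    simp only [smul_apply, add_apply, smul_eq_mul]
    ring
  simp only [e1, e2, ← Finset.mul_sum, Finset.sum_add_distrib]
  refine mul_pos (by positivity) ?_
  have h3 := mul_le_mul_of_nonneg_left (h1 z hz) hl0.le
  have h4 := (abs_le.1 (h2 z hz)).1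
  have h5 := le_abs_self C
  have h6 : l * κ = |C| + 1 := by rw [← hl, div_mul_cancel₀ _ hκ.ne']
  simp only [Pi.mul_apply] at h3
  linarith

/-- The strong maximum principle. -/
theorem hopf (hΩ : IsOpen Ω) (hc : IsPreconnected Ω)
    (ha : ∀ i j, ContDiffOn ℝ ∞ (fun z => a z i j) Ω) (hp : ∀ z ∈ Ω, (a z).PosDef)
    (hu : ContDiffOn ℝ ∞ u Ω) (hw : ∀ ζ : Ec n → ℝ, ContDiff ℝ ∞ ζ → HasCompactSupport ζ →
      tsupport ζ ⊆ Ω → ∫ z, ipm (a z) (fun i => fderiv ℝ u z (bv i)) (fun i => fderiv ℝ ζ z (bv i)) = 0)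
    (h0 : ∀ z ∈ Ω, 0 ≤ u z) {y : Ec n} (hy : y ∈ Ω) (h1 : 0 < u y) : ∀ z ∈ Ω, 0 < u z := by
  have core : ∀ y R, closedBall y R ⊆ Ω → y ∈ Ω → 0 < u y → ∀ z ∈ ball y R, 0 < u z := by
    intro y R hR hy h1 z hz
    obtain ⟨r, hr, h2⟩ := Metric.eventually_nhds_iff.1
      ((hu.continuousOn.continuousAt (hΩ.mem_nhds hy)).eventually (lt_mem_nhds (half_lt_self h1)))
    have hK : IsCompact (closedBall y R \ ball y r) := (isCompact_closedBall y R).diff isOpen_ball
    have hq : ContDiff ℝ ∞ fun z : Ec n => -‖z - y‖ ^ 2 :=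
      ((contDiff_id.sub contDiff_const).norm_sq ℝ).neg
    obtain ⟨l, hl, h3⟩ := hopf_sub hΩ hK (sdiff_subset.trans hR) ha hp hq fun z hz => by
      have d := (((hasFDerivAt_id z).sub_const y).norm_sq).fun_neg
      by_contra h4
      push Not at h4
      have h5 : fderiv ℝ (fun z : Ec n => -‖z - y‖ ^ 2) z (z - y) = 0 := by
        conv_lhs => rw [bv_sum (z - y), map_sum]
        simp only [map_smul, h4, smul_zero, Finset.sum_const_zero]
      have h6 : fderiv ℝ (fun z : Ec n => -‖z - y‖ ^ 2) z = _ := d.fderiv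
      rw [h6] at h5
      exact hz.2 (by
        have h7 : z - y = 0 := inner_self_eq_zero (𝕜 := ℝ).1 (by
          rw [inner_sub_left]
          simpa using h5)
        rw [sub_eq_zero.1 h7]
        exact mem_ball_self hr)
    by_cases h4 : z ∈ ball y r
    · exact (half_pos h1).trans (h2 h4)
    have h5 := hopf_cmp hΩ hK (sdiff_subset.trans hR) ha hp hu hw
      (w := fun z => u y / 2 * (Real.exp (l * -‖z - y‖ ^ 2) - Real.exp (l * -R ^ 2)))
      (contDiff_const.mul ((contDiff_const.mul hq).exp.sub contDiff_const))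
      (fun t ht h6 => ?_) (h3 _ (half_pos h1) _) z ⟨ball_subset_closedBall hz, h4⟩
    · refine lt_of_lt_of_le (mul_pos (half_pos h1) (sub_pos.2 (Real.exp_lt_exp.2 ?_))) h5
      exact mul_lt_mul_of_pos_left (neg_lt_neg (pow_lt_pow_left₀ (mem_ball_iff_norm.1 hz)
        (norm_nonneg _) two_ne_zero)) hl
    · by_cases h7 : t ∈ ball y r
      · refine (mul_le_of_le_one_right (half_pos h1).le ?_).trans (h2 h7).le
        have h8 := Real.exp_pos (l * -R ^ 2)
        have h9 : Real.exp (l * -‖t - y‖ ^ 2) ≤ 1 :=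
          Real.exp_le_one_iff.2 (mul_nonpos_of_nonneg_of_nonpos hl.le (neg_nonpos.2 (sq_nonneg _)))
        linarith
      · refine (mul_nonpos_of_nonneg_of_nonpos (half_pos h1).le
          (sub_nonpos.2 (Real.exp_le_exp.2 ?_))).trans (h0 t ht)
        have h8 : R < ‖t - y‖ := not_le.1 fun h => h6 ⟨mem_closedBall_iff_norm.2 h, h7⟩
        exact mul_le_mul_of_nonneg_left (neg_le_neg (pow_le_pow_left₀ (pos_of_mem_ball hz).le
          h8.le 2)) hl.le
  refine fun z hz => (hc.subset_of_closure_inter_subset (u := Ω ∩ u ⁻¹' Ioi 0)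
    (hu.continuousOn.isOpen_inter_preimage hΩ isOpen_Ioi) ⟨y, hy, hy, h1⟩ ?_ hz).2
  rintro z ⟨h2, h3⟩
  obtain ⟨ε, hε, h4⟩ := nhds_basis_closedBall.mem_iff.1 (hΩ.mem_nhds h3)
  obtain ⟨t, h5, h6⟩ := Metric.mem_closure_iff.1 h2 _ (half_pos hε)
  refine ⟨h3, core t (ε / 2) ((closedBall_subset_closedBall' ?_).trans h4) h5.1 h5.2 z h6⟩
  rw [dist_comm]
  linarith

end Vale.Agent.P088
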