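import Vale.Agent.P088.Ext
import Vale.Agent.P088.Hopf

/-! P088: harmonic functions and the identity of Picone. -/

open Set Filter Bundle Metric Topology MeasureTheory
open scoped Manifold ContDiff RealInnerProductSpace

noncomputable section

namespace Vale.Agent.P088

variable {n N : ℕ} {H : Type} [TopologicalSpace H] {I : ModelWithCorners ℝ (Ec n) H}
  {M : Type} [TopologicalSpace M] [ChartedSpace H M] [IsManifold I ∞ M] [MeasurableSpace M]
  {g : Met I M} {μ : Measure M} {f : M → ℝ}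

/-- Harmonic functions. -/
def Harm (g : Met I M) (μ : Measure M) (f : M → ℝ) : Prop :=
  ∀ ζ : M → ℝ, ContMDiff I 𝓘(ℝ, ℝ) ∞ ζ → (∀ x ∈ I.boundary M, ζ x = 0) →
    ∫ x, en g (fun x v => dif I f x v) (fun x v => dif I ζ x v) x ∂μ = 0

theorem ipm_smul_mat (c : ℝ) (a : Matrix (Fin n) (Fin n) ℝ) (α β : Fin n → ℝ) :
    ipm (c • a) α β = c * ipm a α β := by
  simp only [ipm, Matrix.smul_apply, smul_eq_mul, Finset.mul_sum, mul_assoc]

variable [BorelSpace M] [CompactSpace M]

theorem Harm.nonneg [PreconnectedSpace M] (h : Harm g μ f) (hv : IsVol g μ)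
    (hf : ContMDiff I 𝓘(ℝ, ℝ) ∞ f) (hb : ∀ x ∈ I.boundary M, 0 ≤ f x) {y : M}
    (hy : y ∈ I.boundary M) (x : M) : 0 ≤ f x := by
  have hζ : ContMDiff I 𝓘(ℝ, ℝ) ∞ fun x => expNegInvGlue (-f x) :=
    (expNegInvGlue.contDiff.comp contDiff_neg).comp_contMDiff hf
  have h0 : ∀ x ∈ I.boundary M, expNegInvGlue (-f x) = 0 := fun x hx =>
    expNegInvGlue.zero_of_nonpos (neg_nonpos.2 (hb x hx))
  have d : ∀ x v, dif I (fun x => expNegInvGlue (-f x)) x v =
      deriv expNegInvGlue (-f x) * -1 * dif I f x v := fun x v =>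
    dif_comp (T := fun t => expNegInvGlue (-t)) hf hζ (((expNegInvGlue.contDiff (n := 1)).differentiable
      (by simp) (-f x)).hasDerivAt.comp (f x) (hasDerivAt_neg (f x))) v
  have e : ∀ x, -en g (fun x v => dif I f x v) (fun x v => dif I (fun x => expNegInvGlue (-f x)) x v) x =
      deriv expNegInvGlue (-f x) * en g (fun x v => dif I f x v) (fun x v => dif I f x v) x := fun x => by
    have d' : ∀ i, dif I (fun x => expNegInvGlue (-f x)) x (bv i) =
      deriv expNegInvGlue (-f x) * -1 * dif I f x (bv i) := fun i => d x _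
    simp only [en, d', ipm_mul_right]
    ring
  have h1 := hv.eq_zero (en_cont g (Fld.dif hf) (Fld.dif hζ)).neg
    (fun x => (mul_nonneg expNegInvGlue.monotone.deriv_nonneg (ipm_nonneg (gi_pos g x) _)).trans_eq
      (e x).symm) ((integral_neg _).trans (neg_eq_zero.2 (h _ hζ h0))).le
  have h2 := const_of_dif hζ (fun x v => by
    rw [d]
    rcases mul_eq_zero.1 ((e x).symm.trans (h1 x)) with h3 | h3
    · rw [h3, zero_mul, zero_mul]
    · rw [(Fld.dif hf).zero (ipm_eq_zero (gi_pos g x) h3) v, mul_zero]) x y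
  rw [h0 y hy] at h2
  exact neg_nonpos.1 (expNegInvGlue.zero_iff_nonpos.1 h2)

theorem Harm.weak [T2Space M] (h : Harm g μ f) (hv : IsVol g μ) (hf : ContMDiff I 𝓘(ℝ, ℝ) ∞ f) (p : M)
    {ζ : Ec n → ℝ} (hζ : ContDiff ℝ ∞ ζ) (hc : HasCompactSupport ζ)
    (hs : tsupport ζ ⊆ (extChartAt I p).target ∩ interior (range I)) :
    ∫ z, ipm (√(gm g p z).det • (gm g p z)⁻¹)
      (fun i => fderiv ℝ (fun z => f ((extChartAt I p).symm z)) z (bv i))
      (fun i => fderiv ℝ ζ z (bv i)) = 0 := by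
  classical
  have hK : IsCompact ((extChartAt I p).symm '' tsupport ζ) :=
    hc.isCompact.image_of_continuousOn ((continuousOn_extChartAt_symm p).mono fun z hz => (hs hz).1)
  have k1 : (extChartAt I p).symm '' tsupport ζ ⊆ (extChartAt I p).source := by
    rintro _ ⟨z, hz, rfl⟩
    exact (extChartAt I p).map_target (hs hz).1
  obtain ⟨ξ, hξ⟩ : ∃ ξ : M → ℝ, ξ = (extChartAt I p).source.indicator fun x => ζ (extChartAt I p x) :=
    ⟨_, rfl⟩
  have z0 : ∀ x ∉ (extChartAt I p).symm '' tsupport ζ, ξ x = 0 := fun x hx => by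
    rw [hξ]
    by_cases h1 : x ∈ (extChartAt I p).source
    · rw [indicator_of_mem h1]
      exact image_eq_zero_of_notMem_tsupport fun h2 => hx ⟨_, h2, (extChartAt I p).left_inv h1⟩
    · exact indicator_of_notMem h1 _
  have z1 : ∀ x ∉ (extChartAt I p).symm '' tsupport ζ, ξ =ᶠ[𝓝 x] fun _ => 0 := fun x hx =>
    mem_of_superset (hK.isClosed.isOpen_compl.mem_nhds hx) z0
  have z2 : ContMDiff I 𝓘(ℝ, ℝ) ∞ ξ := fun x => by
    by_cases hx : x ∈ (extChartAt I p).symm '' tsupport ζ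
    · refine (hζ.contMDiff.contMDiffAt.comp x (contMDiffAt_extChartAt'
        (by simpa using k1 hx))).congr_of_eventuallyEq ?_
      filter_upwards [(isOpen_extChartAt_source p).mem_nhds (k1 hx)] with y hy
      rw [hξ]
      exact indicator_of_mem hy _
    · exact contMDiffAt_const.congr_of_eventuallyEq (z1 x hx)
  have z3 : ∀ z ∈ (extChartAt I p).target, ξ ((extChartAt I p).symm z) = ζ z := fun z hz => by
    rw [hξ, indicator_of_mem ((extChartAt I p).map_target hz), (extChartAt I p).right_inv hz]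
  have z4 : ∀ z ∉ tsupport ζ, ∀ a α, ipm a α (fun i => fderiv ℝ ζ z (bv i)) = 0 := fun z hz a α => by
    simp [ipm, fderiv_of_notMem_tsupport ℝ hz]
  have h1 := h ξ z2 fun x hx => z0 x fun ⟨z, hz, e⟩ => by
    rw [← I.compl_interior] at hx
    refine hx ((interior_iff (k1 ⟨z, hz, e⟩)).2 ?_)
    rw [← e, (extChartAt I p).right_inv (hs hz).1]
    exact (hs hz).2
  rw [hv.integral (p := p) (en_cont g (Fld.dif hf) (Fld.dif z2)) fun x hx => by
    have d : ∀ i, dif I ξ x (bv i) = 0 := fun i => by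
      rw [dif_zero (z1 x fun h2 => hx (k1 h2))]
      rfl
    simp only [en, ipm, d, inner_zero_right, mul_zero, Finset.sum_const_zero]] at h1
  rw [← setIntegral_eq_integral_of_forall_compl_eq_zero (s := (extChartAt I p).target)
    fun z hz => z4 z (fun h2 => hz (hs h2).1) _ _, ← h1]
  refine setIntegral_congr_fun (target_meas p) fun z hz => ?_
  have d1 : (dif I ξ ((extChartAt I p).symm z)).comp (fr I p z) = fderiv ℝ ζ z :=
    (I.uniqueDiffOn z (extChartAt_target_subset_range p hz)).eq (chart_fderiv z2 hz)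
      ((hζ.differentiable (by simp) z).hasFDerivAt.hasFDerivWithinAt.congr_of_eventuallyEq
        (mem_of_superset (extChartAt_target_mem_nhdsWithin_of_mem hz) z3) (z3 z hz))
  have d2 : ∀ i, dif I ξ ((extChartAt I p).symm z) (fr I p z (bv i)) = fderiv ℝ ζ z (bv i) :=
    fun i => congrArg (fun L : Ec n →L[ℝ] ℝ => L (bv i)) d1
  simp only [en_chart g (Fld.dif hf) (Fld.dif z2) hz, d2, smul_eq_mul]
  by_cases h2 : z ∈ tsupport ζ
  · rw [ipm_smul_mat, ((chart_fderiv hf hz).hasFDerivAt (mem_interior_iff_mem_nhds.1 (hs h2).2)).fderiv]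
    rfl
  · rw [z4 z h2, z4 z h2, mul_zero]

theorem Harm.pos [T2Space M] [PreconnectedSpace M] (h : Harm g μ f) (hv : IsVol g μ)
    (hf : ContMDiff I 𝓘(ℝ, ℝ) ∞ f) (h0 : ∀ x, 0 ≤ f x) {y : M} (hy : 0 < f y) :
    ∀ x ∈ I.interior M, 0 < f x := by
  have hc : IsClopen {x | ∀ᶠ y in 𝓝 x, y ∈ I.interior M → 0 < f y} := by
    refine ⟨closure_subset_iff_isClosed.1 fun p hp => ?_, isOpen_setOfPred_eventually_nhds⟩
    obtain ⟨r, hr, hs⟩ := exists_ball (I := I) p
    have s1 : ball (extChartAt I p p) r ∩ interior (range I) ⊆ (extChartAt I p).target :=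
      fun z hz => hs ⟨ball_subset_closedBall hz.1, interior_subset hz.2⟩
    obtain ⟨q, h1, h2⟩ := mem_closure_iff_nhds.1 hp _ (ball_nhds (I := I) p hr)
    obtain ⟨t, ⟨h3, h4⟩, h5⟩ := mem_closure_iff_nhds.1 (dense_interior (I := I) q) _
      (inter_mem ((isOpen_extChartAt_preimage' p isOpen_ball).mem_nhds h1) h2)
    have h6 := hopf (isOpen_ball.inter isOpen_interior)
      ((convex_ball _ _).inter I.convex_range.interior).isPreconnected
      (a := fun z => √(gm g p z).det • (gm g p z)⁻¹)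
      (fun i j => (((contDiffOn_det (gm_smooth g p)).sqrt fun z hz =>
        (gm_pos g hz).det_pos.ne').mul (gm_inv_smooth g p i j)).mono s1)
      (fun z hz => (gm_pos g (s1 hz)).inv.smul (Real.sqrt_pos.2 (gm_pos g (s1 hz)).det_pos))
      ((chart_contDiff hf p).mono s1)
      (fun ζ a b c => h.weak hv hf p a b (c.trans fun z hz => ⟨s1 hz, hz.2⟩)) (fun z _ => h0 _)
      ⟨h3.2, (interior_iff h3.1).1 h5⟩ (by rw [(extChartAt I p).left_inv h3.1]; exact h4 h5)
    filter_upwards [ball_nhds (I := I) p hr] with x h7 h8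
    have h9 := h6 _ ⟨h7.2, (interior_iff h7.1).1 h8⟩
    rwa [(extChartAt I p).left_inv h7.1] at h9
  have h1 := hc.eq_univ ⟨y, (hf.continuous.continuousAt.eventually (lt_mem_nhds hy)).mono
    fun _ h _ => h⟩
  exact fun x hx => (eq_univ_iff_forall.1 h1 x).self_of_nhds hx

theorem Harm.picone (h : Harm g μ f) (hv : IsVol g μ) (hf : ContMDiff I 𝓘(ℝ, ℝ) ∞ f)
    (h0 : ∀ x, 0 ≤ f x) (hp : ∀ x ∈ I.interior M, 0 < f x) (A : Conn I M N) {u : M → Fb N}
    (hu : ContMDiff I 𝓘(ℝ, Fb N) ∞ u) (hb : ∀ x ∈ I.boundary M, ⟪u x, u x⟫ = f x * f x)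
    (hE : ∫ x, en g (cov A u) (cov A u) x ∂μ ≤
      ∫ x, en g (fun x v => dif I f x v) (fun x v => dif I f x v) x ∂μ) (x : M)
    (v : TangentSpace I x) : f x • cov A u x v - dif I f x v • u x = 0 := by
  have hρ := sm_inner hu hu
  have c1 := en_cont g (Fld.cov A hu) (Fld.cov A hu)
  have c2 := en_cont g (Fld.dif hf) (Fld.dif hρ)
  have c3 := en_cont g (Fld.dif hf) (Fld.dif hf)
  have p1 : ∀ (w : ℝ) x, 0 ≤ w ^ 2 * en g (cov A u) (cov A u) x -
      w * en g (fun x v => dif I f x v) (fun x v => dif I (fun y => ⟪u y, u y⟫) x v) x +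
        ⟪u x, u x⟫ * en g (fun x v => dif I f x v) (fun x v => dif I f x v) x ∧
      (w ^ 2 * en g (cov A u) (cov A u) x -
        w * en g (fun x v => dif I f x v) (fun x v => dif I (fun y => ⟪u y, u y⟫) x v) x +
          ⟪u x, u x⟫ * en g (fun x v => dif I f x v) (fun x v => dif I f x v) x = 0 →
        ∀ i, w • cov A u x (bv i) - dif I f x (bv i) • u x = 0) := fun w x => by
    have e : ∀ i, dif I (fun y => ⟪u y, u y⟫) x (bv i) = 2 * ⟪cov A u x (bv i), u x⟫ := fun i => by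
      rw [dif_inner_cov A hu hu x (bv i), real_inner_comm, two_mul]
    simp only [en, e]
    rw [← ipm_pic (gi_pos g x)]
    exact ⟨ipm_nonneg (gi_pos g x) _, ipm_eq_zero (gi_pos g x)⟩
  have n3 : ∀ x, 0 ≤ en g (fun x v => dif I f x v) (fun x v => dif I f x v) x := fun x =>
    ipm_nonneg (gi_pos g x) _
  have t1 : ∀ η > (0 : ℝ), ∃ F : M → ℝ, Continuous F ∧ ∫ x, F x ∂μ = 0 ∧ ∀ x, F x =
      (f x + η)⁻¹ * en g (fun x v => dif I f x v) (fun x v => dif I (fun y => ⟪u y, u y⟫) x v) x -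
        ((f x + η)⁻¹ * (2 * f x) + (⟪u x, u x⟫ - f x * f x) * ((f x + η) ^ 2)⁻¹) *
          en g (fun x v => dif I f x v) (fun x v => dif I f x v) x := fun η hη => by
    have w0 : ∀ x, f x + η ≠ 0 := fun x => (add_pos_of_nonneg_of_pos (h0 x) hη).ne'
    have s1 : ContMDiff I 𝓘(ℝ, ℝ) ∞ fun x => (f x + η)⁻¹ := (hf.add contMDiff_const).inv₀ w0
    have s2 := sm_sub hρ (sm_smul hf hf)
    refine ⟨_, en_cont g (Fld.dif hf) (Fld.dif (sm_smul s1 s2)), h _ (sm_smul s1 s2) fun x hx => by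
      rw [hb x hx, smul_eq_mul (f x), sub_self, smul_zero], fun x => ?_⟩
    have e : ∀ i, dif I (fun y => (f y + η)⁻¹ • (⟪u y, u y⟫ - f y • f y)) x (bv i) =
        (f x + η)⁻¹ * dif I (fun y => ⟪u y, u y⟫) x (bv i) - ((f x + η)⁻¹ * (2 * f x) +
          (⟪u x, u x⟫ - f x * f x) * ((f x + η) ^ 2)⁻¹) * dif I f x (bv i) := fun i => by
      rw [dif_smul s1 s2 x (bv i), dif_sub hρ (sm_smul hf hf) x (bv i), dif_smul hf hf x (bv i),
        dif_comp (T := fun t => (t + η)⁻¹) hf s1 ((hasDerivAt_inv (w0 x)).comp_add_const _ _) (bv i)]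
      simp only [smul_eq_mul]
      ring
    simp only [en, e, ipm_sub_right, ipm_mul_right]
  generalize en g (cov A u) (cov A u) = e1 at hE c1 p1
  generalize en g (fun x v => dif I f x v) (fun x v => dif I (fun y => ⟪u y, u y⟫) x v) = e2 at c2 p1 t1
  generalize en g (fun x v => dif I f x v) (fun x v => dif I f x v) = e3 at hE c3 p1 n3 t1
  obtain ⟨C, hC⟩ := isCompact_univ.exists_bound_of_continuousOn hf.continuous.continuousOn
  have cS : Continuous fun x => f x ^ 2 * e1 x - f x * e2 x + ⟪u x, u x⟫ * e3 x :=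
    (((hf.continuous.pow 2).mul c1).sub (hf.continuous.mul c2)).add (hρ.continuous.mul c3)
  have cR : ∀ η > (0 : ℝ), Continuous fun x => η ^ 2 / (f x + η) ^ 2 * e3 x := fun η hη =>
    (continuous_const.div ((hf.continuous.add continuous_const).pow 2) fun x =>
      pow_ne_zero 2 (add_pos_of_nonneg_of_pos (h0 x) hη).ne').mul c3
  have cT : Continuous fun x => e2 x - 2 * f x * e1 x :=
    c2.sub ((continuous_const.mul hf.continuous).mul c1)
  have key : ∀ η > (0 : ℝ), η ≤ 1 → ∫ x, f x ^ 2 * e1 x - f x * e2 x + ⟪u x, u x⟫ * e3 x ∂μ ≤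
      (C + 1) ^ 2 * ∫ x, η ^ 2 / (f x + η) ^ 2 * e3 x ∂μ + η * ∫ x, e2 x - 2 * f x * e1 x ∂μ -
        η ^ 2 * ∫ x, e1 x ∂μ := fun η hη h1 => by
    obtain ⟨F, cF, iF, eF⟩ := t1 η hη
    have i1 : Integrable (fun x => e1 x - e3 x) μ := hv.int (c1.sub c3)
    have i2 : Integrable (fun x => e1 x - e3 x - F x) μ := i1.sub (hv.int cF)
    have i3 : Integrable (fun x => (C + 1) ^ 2 *
        (e1 x - e3 x - F x + η ^ 2 / (f x + η) ^ 2 * e3 x)) μ := (i2.add (hv.int (cR η hη))).const_mul _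
    have i4 : Integrable (fun x => η * (e2 x - 2 * f x * e1 x)) μ := (hv.int cT).const_mul _
    have i5 : Integrable (fun x => (C + 1) ^ 2 * (e1 x - e3 x - F x + η ^ 2 / (f x + η) ^ 2 * e3 x) +
        η * (e2 x - 2 * f x * e1 x)) μ := i3.add i4
    have i6 : Integrable (fun x => η ^ 2 * e1 x) μ := (hv.int c1).const_mul _
    have l1 := integral_mono (hv.int cS) (g := fun x => (C + 1) ^ 2 *
        (e1 x - e3 x - F x + η ^ 2 / (f x + η) ^ 2 * e3 x) + η * (e2 x - 2 * f x * e1 x) - η ^ 2 * e1 x)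
      (i5.sub i6) fun x => by
      have w0 := add_pos_of_nonneg_of_pos (h0 x) hη
      have e : (f x + η) ^ 2 * (e1 x - e3 x - F x + η ^ 2 / (f x + η) ^ 2 * e3 x) =
          (f x + η) ^ 2 * e1 x - (f x + η) * e2 x + ⟪u x, u x⟫ * e3 x := by
        rw [eF]
        field_simp
        ring
      have l2 := nonneg_of_mul_nonneg_right ((p1 (f x + η) x).1.trans_eq e.symm) (pow_pos w0 2)
      have l3 := mul_le_mul_of_nonneg_right (pow_le_pow_left₀ w0.le
        (add_le_add ((le_abs_self _).trans (hC x (mem_univ x))) h1) 2) l2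
      simp only
      linarith
    rw [integral_sub i5 i6, integral_add i3 i4, integral_const_mul, integral_const_mul,
      integral_const_mul, integral_add i2 (hv.int (cR η hη)), integral_sub i1 (hv.int cF),
      integral_sub (hv.int c1) (hv.int c3), iF] at l1
    have l2 := mul_le_mul_of_nonneg_left (sub_nonpos.2 hE) (sq_nonneg (C + 1))
    linarith
  have l0 : Tendsto (fun k : ℕ => 1 / ((k : ℝ) + 1)) atTop (𝓝 0) := tendsto_one_div_add_atTop_nhds_zero_nat
  have l1 := tendsto_integral_of_dominated_convergence (μ := μ)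
    (F := fun (k : ℕ) x => (1 / ((k : ℝ) + 1)) ^ 2 / (f x + 1 / ((k : ℝ) + 1)) ^ 2 * e3 x)
    (f := fun x => 0 ^ 2 / (f x + 0) ^ 2 * e3 x) e3
    (fun k => (cR _ Nat.one_div_pos_of_nat).aestronglyMeasurable) (hv.int c3)
    (fun k => ae_of_all _ fun x => by
      have k0 : (0 : ℝ) < 1 / ((k : ℝ) + 1) := Nat.one_div_pos_of_nat
      rw [Real.norm_of_nonneg (mul_nonneg (by positivity) (n3 x))]
      exact mul_le_of_le_one_left (n3 x) (div_le_one_of_le₀
        (pow_le_pow_left₀ k0.le (le_add_of_nonneg_left (h0 x)) 2) (sq_nonneg _)))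
    (hv.ae_interior.mono fun x hx => ((l0.pow 2).div ((l0.const_add _).pow 2)
      (pow_ne_zero 2 (by rw [add_zero]; exact (hp x hx).ne'))).mul_const _)
  have l2 := ge_of_tendsto' (((l1.const_mul ((C + 1) ^ 2)).add (l0.mul_const _)).sub
    ((l0.pow 2).mul_const _)) fun k => key _ Nat.one_div_pos_of_nat
      ((div_le_one (by positivity)).2 (le_add_of_nonneg_left (Nat.cast_nonneg k)))
  simp only [ne_eq, OfNat.ofNat_ne_zero, not_false_eq_true, zero_pow, zero_div, zero_mul,
    integral_zero, mul_zero, add_zero, sub_zero] at l2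
  have l3 := (p1 (f x) x).2 (hv.eq_zero cS (fun x => (p1 (f x) x).1) l2 x)
  have hF : Fld fun x v => f x • cov A u x v - dif I f x v • u x := by
    refine ⟨fun x => ⟨fun a b => ?_, fun c a => ?_⟩, ((hf.continuous.comp
      (FiberBundle.continuous_proj _ _)).smul (Fld.cov A hu).cont).sub ((Fld.dif hf).cont.smul
        (hu.continuous.comp (FiberBundle.continuous_proj _ _)))⟩
    · rw [((Fld.cov A hu).lin x).map_add, map_add, smul_add, add_smul]
      abel
    · rw [((Fld.cov A hu).lin x).map_smul, map_smul, smul_sub, smul_comm c (f x), smul_assoc]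
  exact hF.zero l3 v

end Vale.Agent.P088
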