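import Vale.Agent.P088.Calc

/-! P088: parallel sections extend to the boundary. -/

open Set Filter Bundle Metric Topology
open scoped Manifold ContDiff RealInnerProductSpace

noncomputable section

namespace Vale.Agent.P088

variable {n N : ℕ}

theorem ext_loc {F : Type} [NormedAddCommGroup F] [InnerProductSpace ℝ F] [FiniteDimensional ℝ F]
    {C : Set (Ec n)} (hC : Convex ℝ C) (hcl : IsClosed C) (hd : C ⊆ closure (interior C))
    (hu : UniqueDiffOn ℝ C) {c : Ec n} {r : ℝ} {B : Ec n → F →L[ℝ] Ec n →L[ℝ] F}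
    (hB : ContDiffOn ℝ ∞ B (closedBall c r ∩ C)) (sk : ∀ z a v, ⟪a, B z a v⟫ = 0) {σ : Ec n → F}
    (hσ : ∀ z ∈ ball c r ∩ interior C, HasFDerivAt σ (B z (σ z)) z) :
    ∃ τ : Ec n → F, Continuous τ ∧ EqOn σ τ (ball c r ∩ interior C) ∧
      ContDiffOn ℝ ∞ τ (C ∩ ball c r) ∧
      ∀ z ∈ C ∩ ball c r, HasFDerivWithinAt τ (B z (τ z)) (C ∩ ball c r) z := by
  have s1 : Convex ℝ (ball c r ∩ interior C) := (convex_ball c r).inter hC.interior
  have s2 : IsOpen (ball c r ∩ interior C) := isOpen_ball.inter isOpen_interior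
  have s3 : ball c r ∩ interior C ⊆ closedBall c r ∩ C :=
    inter_subset_inter ball_subset_closedBall interior_subset
  have s4 : C ∩ ball c r ⊆ closure (ball c r ∩ interior C) := fun z hz =>
    isOpen_ball.inter_closure ⟨hz.2, hd hz.1⟩
  have s5 : C ∩ ball c r ⊆ closedBall c r ∩ C := fun z hz => ⟨ball_subset_closedBall hz.2, hz.1⟩
  obtain ⟨a, ha⟩ : ∃ a : ℝ, ∀ z ∈ ball c r ∩ interior C, ‖σ z‖ ≤ a := by
    rcases (ball c r ∩ interior C).eq_empty_or_nonempty with h | ⟨y, hy⟩
    · exact ⟨0, fun z hz => by rw [h] at hz; exact hz.elim⟩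
    refine ⟨‖σ y‖, fun z hz => ?_⟩
    have h1 := s1.norm_image_sub_le_of_norm_hasFDerivWithin_le (C := 0)
      (fun z hz => ((hσ z hz).inner ℝ (hσ z hz)).hasFDerivWithinAt)
      (fun z _ => ContinuousLinearMap.opNorm_le_bound _ le_rfl fun v => by
        simp only [ContinuousLinearMap.comp_apply, ContinuousLinearMap.prod_apply,
          fderivInnerCLM_apply, sk, real_inner_comm (σ z), add_zero, norm_zero, zero_mul, le_refl])
      hy hz
    rw [zero_mul, norm_le_zero_iff, sub_eq_zero, real_inner_self_eq_norm_sq,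
      real_inner_self_eq_norm_sq] at h1
    exact ((pow_left_inj₀ (norm_nonneg _) (norm_nonneg _) two_ne_zero).1 h1).le
  let _ : NormedAddCommGroup (F →L[ℝ] Ec n →L[ℝ] F) := ContinuousLinearMap.toNormedAddCommGroup
  obtain ⟨b, hb⟩ := ((isCompact_closedBall c r).inter_right hcl).exists_bound_of_continuousOn
    hB.continuousOn
  obtain ⟨τ, h1, h2⟩ := (s1.lipschitzOnWith_of_nnnorm_hasFDerivWithin_le (C := (b * a).toNNReal)
    (fun z hz => (hσ z hz).hasFDerivWithinAt) fun z hz => by
      rw [← NNReal.coe_le_coe, coe_nnnorm]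
      exact (((B z).le_opNorm _).trans (mul_le_mul (hb z (s3 hz)) (ha z hz) (norm_nonneg _)
        ((norm_nonneg _).trans (hb z (s3 hz))))).trans (Real.le_coe_toNNReal _)).extend_finite_dimension
  have d1 : ∀ z ∈ ball c r ∩ interior C, HasFDerivAt τ (B z (τ z)) z := fun z hz => by
    rw [← h2 hz]
    exact (hσ z hz).congr_of_eventuallyEq (mem_of_superset (s2.mem_nhds hz) fun y hy => (h2 hy).symm)
  have d2 : ∀ z ∈ C ∩ ball c r, HasFDerivWithinAt τ (B z (τ z)) (C ∩ ball c r) z := fun z hz =>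
    (hasFDerivWithinAt_closure_of_tendsto_fderiv
      (fun y hy => (d1 y hy).differentiableAt.differentiableWithinAt) s1 s2
      (fun y _ => h1.continuous.continuousWithinAt)
      ((((hB.continuousOn.clm_apply h1.continuous.continuousOn) z (s5 hz)).mono s3).tendsto.congr'
        (mem_of_superset self_mem_nhdsWithin fun y hy => (d1 y hy).fderiv.symm))).mono s4
  refine ⟨τ, h1.continuous, h2, contDiffOn_infty.2 fun m => ?_, d2⟩
  induction m with
  | zero => exact contDiffOn_zero.2 h1.continuous.continuousOn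
  | succ m ih =>
    refine contDiffOn_succ_of_fderivWithin (fun z hz => (d2 z hz).differentiableWithinAt)
      (fun h => absurd h (by simp)) ((((hB.mono s5).of_le (by exact_mod_cast le_top)).clm_apply
        ih).congr fun z hz => (d2 z hz).fderivWithin (hu.inter isOpen_ball z hz))

variable {H : Type} [TopologicalSpace H] {I : ModelWithCorners ℝ (Ec n) H}
  {M : Type} [TopologicalSpace M] [ChartedSpace H M] [IsManifold I ∞ M]

/-- The connection in a chart. -/
theorem Conn.chart (A : Conn I M N) (p : M) : ∃ B : Ec n → Fb N →L[ℝ] Ec n →L[ℝ] Fb N,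
    ContDiffOn ℝ ∞ B (extChartAt I p).target ∧
      ∀ z a v, B z a v = -A.A ((extChartAt I p).symm z) (fr I p z v) a := by
  refine ⟨fun z => -((ContinuousLinearMap.restrictScalarsL ℂ (Fb N) (Fb N) ℝ ℝ).comp
    ((A.A _).comp (fr I p z))).flip, contDiffOn_clm_apply.2 fun a => contDiffOn_clm_apply.2 fun v => ?_,
    fun _ _ _ => rfl⟩
  exact ((((ContinuousLinearMap.apply ℂ (Fb N) a).restrictScalars ℝ).contDiff.comp_contDiffOn
    (A.smooth.comp_contMDiffOn (sec_smooth p v)).contDiffOn)).neg

theorem ext_par (A : Conn I M N) {σ : M → Fb N}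
    (hσ : ∀ p : M, ∀ z ∈ (extChartAt I p).target, z ∈ interior (range I) → ∃ L : Ec n →L[ℝ] Fb N,
      HasFDerivAt (fun z => σ ((extChartAt I p).symm z)) L z ∧ ∀ v, L v =
        -A.A ((extChartAt I p).symm z) (fr I p z v) (σ ((extChartAt I p).symm z))) :
    ∃ τ : M → Fb N, ContMDiff I 𝓘(ℝ, Fb N) ∞ τ ∧ EqOn σ τ (I.interior M) ∧
      ∀ x v, cov A τ x v = 0 := by
  choose r hr hs using exists_ball (I := I) (M := M)
  choose B hB eB using A.chart
  choose τ c1 c2 c3 c4 using fun p : M => ext_loc I.convex_range I.isClosed_range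
    I.range_subset_closure_interior I.uniqueDiffOn ((hB p).mono (hs p))
    (fun z a v => by
      have h1 := A.skew_inner ((extChartAt I p).symm z) (fr I p z v) a a
      rw [real_inner_comm a] at h1
      rw [eB, inner_neg_right]
      linarith)
    (σ := fun z => σ ((extChartAt I p).symm z)) fun z hz => by
      obtain ⟨L, h1, h2⟩ := hσ p z (hs p ⟨ball_subset_closedBall hz.1, interior_subset hz.2⟩) hz.2
      rwa [show B p z _ = L from ContinuousLinearMap.ext fun v => by rw [eB, h2]]
  have e1 : ∀ p, ∀ x ∈ (extChartAt I p).source ∩ extChartAt I p ⁻¹' ball (extChartAt I p p) (r p),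
      x ∈ I.interior M → σ x = τ p (extChartAt I p x) := fun p x hx hi =>
    (congrArg σ ((extChartAt I p).left_inv hx.1).symm).trans (c2 p ⟨hx.2, (interior_iff hx.1).1 hi⟩)
  have e2 : ∀ p, ∀ x ∈ (extChartAt I p).source ∩ extChartAt I p ⁻¹' ball (extChartAt I p p) (r p),
      Tendsto σ (𝓝[I.interior M] x) (𝓝 (τ p (extChartAt I p x))) := fun p x hx =>
    (((c1 p).continuousAt.comp (continuousAt_extChartAt' hx.1)).tendsto.mono_left
      nhdsWithin_le_nhds).congr' (by
        filter_upwards [self_mem_nhdsWithin, mem_nhdsWithin_of_mem_nhds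
          ((isOpen_extChartAt_preimage' p isOpen_ball).mem_nhds hx)] with y h1 h2
        exact (e1 p y h2 h1).symm)
  have m0 : ∀ p, p ∈ (extChartAt I p).source ∩ extChartAt I p ⁻¹' ball (extChartAt I p p) (r p) :=
    fun p => ⟨mem_extChartAt_source p, mem_ball_self (hr p)⟩
  have e3 : ∀ p, ∀ x ∈ (extChartAt I p).source ∩ extChartAt I p ⁻¹' ball (extChartAt I p p) (r p),
      τ x (extChartAt I x x) = τ p (extChartAt I p x) := fun p x hx =>
    have := mem_closure_iff_nhdsWithin_neBot.1 (dense_interior (I := I) x)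
    tendsto_nhds_unique (e2 x x (m0 x)) (e2 p x hx)
  have sm : ContMDiff I 𝓘(ℝ, Fb N) ∞ fun x => τ x (extChartAt I x x) := fun p =>
    (((c3 p).contMDiffOn.comp (contMDiffOn_extChartAt.mono fun x hx => by simpa using hx.1)
      fun x hx => ⟨mem_range_self _, hx.2⟩).congr (e3 p)).contMDiffAt (ball_nhds p (hr p))
  refine ⟨_, sm, fun x hx => e1 x x (m0 x) hx, fun p v => ?_⟩
  have d1 : HD I (fun x => τ x (extChartAt I x x)) p (B p (extChartAt I p p) (τ p (extChartAt I p p))) := by
    refine ((hasFDerivWithinAt_inter (ball_mem_nhds _ (hr p))).1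
      (c4 p _ ⟨mem_range_self _, mem_ball_self (hr p)⟩)).congr_of_eventuallyEq ?_ ?_
    · filter_upwards [extChartAt_target_mem_nhdsWithin p,
        mem_nhdsWithin_of_mem_nhds (ball_mem_nhds _ (hr p))] with z h1 h2
      rw [e3 p _ ⟨(extChartAt I p).map_target h1, by
        rwa [mem_preimage, (extChartAt I p).right_inv h1]⟩, (extChartAt I p).right_inv h1]
    · rw [extChartAt_to_inv]
  have e4 : ∀ y, y = p → ∀ w : Ec n, A.A y w = A.A p w := by
    rintro _ rfl _
    rfl
  have e5 : fr I p (extChartAt I p p) v = v :=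
    congrArg (fun L : Ec n →L[ℝ] Ec n => L v) (mfderivWithin_range_extChartAt_symm (I := I) (x := p))
  rw [cov, dif_eq sm d1, eB _ _ _ v, e4 _ (extChartAt_to_inv p) (fr I p (extChartAt I p p) v), e5]
  exact neg_add_cancel _

end Vale.Agent.P088
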