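import Vale.Agent.P088.Par

/-! P088: parallel frames and gauge transformations. -/

open Set Filter Bundle Metric Topology MeasureTheory
open scoped Manifold ContDiff

noncomputable section

namespace Vale.Agent.P088

variable {n N : ℕ} {H : Type} [TopologicalSpace H] {I : ModelWithCorners ℝ (Ec n) H}
  {M : Type} [TopologicalSpace M] [ChartedSpace H M] {a b : M → Op N}

theorem dif_clm {V W : Type} [NormedAddCommGroup V] [NormedSpace ℝ V] [NormedAddCommGroup W]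
    [NormedSpace ℝ W] (L : V →L[ℝ] W) {u : M → V} (hu : ContMDiff I 𝓘(ℝ, V) ∞ u) (x : M)
    (v : TangentSpace I x) : dif I (fun y => L (u y)) x v = L (dif I u x v) :=
  have h := L.hasFDerivAt.comp_hasFDerivWithinAt _ (HD.of hu x)
  dif_eq (L.contDiff.comp_contMDiff hu) h v

theorem sm_mul (ha : ContMDiff I 𝓘(ℝ, Op N) ∞ a) (hb : ContMDiff I 𝓘(ℝ, Op N) ∞ b) :
    ContMDiff I 𝓘(ℝ, Op N) ∞ fun x => a x * b x :=
  (contDiff_mul (𝕜 := ℝ)).comp_contMDiff (ha.prodMk_space hb)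

theorem sm_star (ha : ContMDiff I 𝓘(ℝ, Op N) ∞ a) : ContMDiff I 𝓘(ℝ, Op N) ∞ fun x => star (a x) :=
  (starL' ℝ : Op N ≃L[ℝ] Op N).contDiff.comp_contMDiff ha

theorem sm_app (ha : ContMDiff I 𝓘(ℝ, Op N) ∞ a) (e : Fb N) :
    ContMDiff I 𝓘(ℝ, Fb N) ∞ fun x => a x e :=
  ((ContinuousLinearMap.apply ℂ (Fb N) e).restrictScalars ℝ).contDiff.comp_contMDiff ha

theorem dif_mul (ha : ContMDiff I 𝓘(ℝ, Op N) ∞ a) (hb : ContMDiff I 𝓘(ℝ, Op N) ∞ b) (x : M)
    (v : TangentSpace I x) :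
    dif I (fun y => a y * b y) x v = a x * dif I b x v + dif I a x v * b x := by
  have h := HasFDerivWithinAt.fun_mul' (HD.of ha x) (HD.of hb x)
  rw [extChartAt_to_inv] at h
  exact dif_eq (sm_mul ha hb) h v

theorem dif_star (ha : ContMDiff I 𝓘(ℝ, Op N) ∞ a) (x : M) (v : TangentSpace I x) :
    dif I (fun y => star (a y)) x v = star (dif I a x v) :=
  dif_clm (starL' ℝ : Op N ≃L[ℝ] Op N).toContinuousLinearMap ha x v

theorem dif_app (ha : ContMDiff I 𝓘(ℝ, Op N) ∞ a) (e : Fb N) (x : M) (v : TangentSpace I x) :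
    dif I (fun y => a y e) x v = dif I a x v e :=
  dif_clm ((ContinuousLinearMap.apply ℂ (Fb N) e).restrictScalars ℝ) ha x v

section ring
variable {R : Type} [Ring R] [StarRing R] {a v d w c : R}

theorem st1 (sk : star a = -a) (h : a = star v * d) (u : v * star v = 1) :
    star d = -(a * star v) := by
  rw [← neg_mul, ← sk, h, star_mul, star_star, mul_assoc, u, mul_one]

theorem st2 (sk : star a = -a) : star (-(a * w)) = star w * a := by
  rw [star_neg, star_mul, sk, mul_neg, neg_neg]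

theorem st3 : star w * -(a * w) + star w * a * w = 0 := by
  rw [mul_neg, mul_assoc, neg_add_cancel]

theorem st4 (h : star (v * w) * (v * w) = 1) :
    c = star (v * w) * a * (v * w) + star (v * w) * (v * (w * c) + -(a * v) * w) := by
  rw [← mul_assoc v, mul_add, ← mul_assoc _ _ c, h, one_mul, neg_mul, mul_neg, mul_assoc a,
    mul_assoc _ a]
  abel

end ring

theorem op_comm {P Q : Op N} (h : P * Q = 1) : Q * P = 1 :=
  ContinuousLinearMap.coe_injective
    ((LinearMap.comp_eq_id_comm ℂ (Fb N)).1 (congrArg ContinuousLinearMap.toLinearMap h))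

theorem op_basis (N : ℕ) : ∃ (b : Fin N → Fb N) (L : (Fin N → Fb N) →L[ℝ] Op N),
    (∀ f k, L f (b k) = f k) ∧ ∀ P Q : Op N, (∀ k, P (b k) = Q (b k)) → P = Q :=
  let b := (EuclideanSpace.basisFun (Fin N) ℂ).toBasis
  ⟨b, (LinearMap.toContinuousLinearMap
    ((b.constr ℂ).trans LinearMap.toContinuousLinearMap).toLinearMap).restrictScalars ℝ,
    b.constr_basis ℂ, fun _ _ h => ContinuousLinearMap.coe_injective (b.ext h)⟩

variable [IsManifold I ∞ M] [PreconnectedSpace M]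

theorem frame {A : Conn I M N} {W : M → Op N} (hW : ContMDiff I 𝓘(ℝ, Op N) ∞ W)
    (h : ∀ x v, dif I W x v = -(A.A x v * W x)) {y : M} (hy : star (W y) * W y = 1) :
    (∀ x v, dif I (fun y => star (W y)) x v = star (W x) * A.A x v) ∧
      ∀ x, W x ∈ unitary (Op N) := by
  have w5 : ∀ x v, dif I (fun y => star (W y)) x v = star (W x) * A.A x v := fun x v => by
    rw [dif_star hW x v, h]
    exact st2 (A.skew x v)
  have w6 : ∀ x v, dif I (fun y => star (W y) * W y) x v = 0 := fun x v => by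
    rw [dif_mul (sm_star hW) hW x v, h, w5]
    exact st3 (R := Op N) (a := A.A x v) (w := W x)
  have w7 : ∀ x, star (W x) * W x = 1 := fun x =>
    (const_of_dif (sm_mul (sm_star hW) hW) w6 x y).trans hy
  exact ⟨w5, fun x => ⟨w7 x, op_comm (w7 x)⟩⟩

omit [PreconnectedSpace M] in
theorem frame_of {A₁ A₂ : Conn I M N} {Γ : Set M}
    (h : ∀ s : M → Fb N, ContMDiff I 𝓘(ℝ, Fb N) ∞ s → (∀ x v, cov A₁ s x v = 0) →
      ∃ t : M → Fb N, ContMDiff I 𝓘(ℝ, Fb N) ∞ t ∧ (∀ x v, cov A₂ t x v = 0) ∧ EqOn t s Γ)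
    {V : M → Op N} (hV : ContMDiff I 𝓘(ℝ, Op N) ∞ V) (d1 : ∀ x v, dif I V x v = -(A₁.A x v * V x)) :
    ∃ W : M → Op N, ContMDiff I 𝓘(ℝ, Op N) ∞ W ∧ (∀ x v, dif I W x v = -(A₂.A x v * W x)) ∧
      ∀ x ∈ Γ, W x = V x := by
  obtain ⟨b, L, hL, ex⟩ := op_basis N
  choose t t1 t2 t3 using fun k => h _ (sm_app hV (b k)) fun x v => by
    rw [cov, dif_app hV (b k) x v, d1]
    exact neg_add_cancel _
  have w1 : ContMDiff I 𝓘(ℝ, Op N) ∞ fun x => L fun k => t k x :=
    L.contDiff.comp_contMDiff (contMDiff_pi_space.2 t1)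
  refine ⟨_, w1, fun x v => ex _ _ fun k => ?_, fun x hx => ex _ _ fun k => (hL _ k).trans (t3 k hx)⟩
  rw [← dif_app w1 (b k) x v, funext fun x => hL (fun k => t k x) k]
  exact (eq_neg_of_add_eq_zero_left (t2 k x v)).trans
    (congrArg (fun a => -A₂.A x v a) (hL (fun k => t k x) k).symm)

theorem gauge {A₁ A₂ : Conn I M N} {Γ : Set M} (hne : Γ.Nonempty)
    (h : ∀ s : M → Fb N, ContMDiff I 𝓘(ℝ, Fb N) ∞ s → (∀ x v, cov A₁ s x v = 0) →
      ∃ t : M → Fb N, ContMDiff I 𝓘(ℝ, Fb N) ∞ t ∧ (∀ x v, cov A₂ t x v = 0) ∧ EqOn t s Γ)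
    {V : M → Op N} (hV : ContMDiff I 𝓘(ℝ, Op N) ∞ V) (hU : ∀ x, V x ∈ unitary (Op N))
    (hA : ∀ x v, A₁.A x v = star (V x) * dif I V x v) :
    ∃ U : M → Op N, ContMDiff I 𝓘(ℝ, Op N) ∞ U ∧ (∀ x, U x ∈ unitary (Op N)) ∧
      (∀ x ∈ Γ, U x = 1) ∧
      ∀ x v, A₂.A x v = star (U x) * A₁.A x v * U x + star (U x) * dif I U x v := by
  obtain ⟨y, hy⟩ := hne
  have d1 : ∀ x v, dif I (fun y => star (V y)) x v = -(A₁.A x v * star (V x)) := fun x v =>
    (dif_star hV x v).trans (st1 (R := Op N) (a := A₁.A x v) (v := V x) (d := dif I V x v)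
      (A₁.skew x v) (hA x v) (hU x).2)
  obtain ⟨W, w1, w3, w4⟩ := frame_of h (sm_star hV) d1
  obtain ⟨w5, w7⟩ := frame w1 w3 (y := y) (by rw [w4 y hy, star_star, (hU y).2])
  have w8 : ∀ x, star (V x) * star (W x) ∈ unitary (Op N) := fun x =>
    mul_mem (Unitary.star_mem (hU x)) (Unitary.star_mem (w7 x))
  refine ⟨fun x => star (V x) * star (W x), sm_mul (sm_star hV) (sm_star w1), w8, fun x hx => ?_,
    fun x v => ?_⟩
  · simp only [w4 x hx, star_star, (hU x).1]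
  · rw [dif_mul (sm_star hV) (sm_star w1) x v, d1, w5]
    exact st4 (R := Op N) (a := A₁.A x v) (c := A₂.A x v) (v := star (V x)) (w := star (W x))
      (w8 x).1

end Vale.Agent.P088
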