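import Vale.Agent.P088.Chart

/-! P088: the Riemannian volume. -/

open Set Filter Bundle Metric Topology MeasureTheory
open scoped Manifold ContDiff ENNReal

noncomputable section

namespace Vale.Agent.P088

variable {n N : ℕ} {H : Type} [TopologicalSpace H] {I : ModelWithCorners ℝ (Ec n) H}
  {M : Type} [TopologicalSpace M] [ChartedSpace H M] [IsManifold I ∞ M] [MeasurableSpace M]
  [BorelSpace M] {g : Met I M} {μ : Measure M} {p : M}

omit [IsManifold I ∞ M] [MeasurableSpace M] [BorelSpace M] in
theorem target_meas (p : M) : MeasurableSet (extChartAt I p).target := by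
  rw [extChartAt_target]
  exact ((chartAt H p).open_target.preimage I.continuous_symm).measurableSet.inter
    I.isClosed_range.measurableSet

omit [MeasurableSpace M] [BorelSpace M] in
theorem dens_cont (g : Met I M) (p : M) :
    ContinuousOn (fun z => √(gm g p z).det) (extChartAt I p).target :=
  (contDiffOn_det (gm_smooth g p)).continuousOn.sqrt

omit [IsManifold I ∞ M] in
theorem symm_aem (p : M) (f : Ec n → ℝ≥0∞) : AEMeasurable (extChartAt I p).symm
    ((volume.restrict (extChartAt I p).target).withDensity f) :=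
  ((continuousOn_extChartAt_symm p).aemeasurable (target_meas p)).mono_ac
    (withDensity_absolutelyContinuous _ _)

theorem IsVol.ae_source (hv : IsVol g μ) {P : M → Prop}
    (h : ∀ᵐ z ∂volume.restrict (extChartAt I p).target, P ((extChartAt I p).symm z)) :
    ∀ᵐ x ∂μ.restrict (extChartAt I p).source, P x := by
  classical
  obtain ⟨T, h1, h2, h3⟩ := exists_measurable_superset_of_null (ae_iff.1 h)
  have h4 : Measurable ((extChartAt I p).source.piecewise (extChartAt I p) fun _ => 0) :=
    (continuousOn_extChartAt p).measurable_piecewise continuousOn_const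
      (isOpen_extChartAt_source p).measurableSet
  have h5 : ∀ᵐ x ∂μ.restrict (extChartAt I p).source,
      (extChartAt I p).source.piecewise (extChartAt I p) (fun _ => 0) x ∈ Tᶜ := by
    rw [hv p]
    refine (ae_map_iff (symm_aem p _) (h4 h2.compl)).2 (withDensity_absolutelyContinuous _ _ ?_)
    change ∀ᵐ z ∂volume.restrict (extChartAt I p).target, _
    filter_upwards [ae_restrict_mem (target_meas p), measure_eq_zero_iff_ae_notMem.1 h3] with z h6 h7
    rwa [piecewise_eq_of_mem _ _ _ ((extChartAt I p).map_target h6), (extChartAt I p).right_inv h6]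
  filter_upwards [h5, ae_restrict_mem (isOpen_extChartAt_source p).measurableSet] with x h6 h7
  rw [piecewise_eq_of_mem _ _ _ h7] at h6
  by_contra h8
  exact h6 (h1 (by rwa [mem_ofPred_eq, (extChartAt I p).left_inv h7]))

theorem IsVol.ae [CompactSpace M] (hv : IsVol g μ) {P : M → Prop}
    (h : ∀ p, ∀ᵐ z ∂volume.restrict (extChartAt I p).target, P ((extChartAt I p).symm z)) :
    ∀ᵐ x ∂μ, P x := by
  obtain ⟨t, ht⟩ := CompactSpace.elim_nhds_subcover _ fun p : M => extChartAt_source_mem_nhds (I := I) p
  rw [← Measure.restrict_univ (μ := μ), ← top_eq_univ, ← ht, ae_restrict_biUnion_finset_iff]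
  exact fun p _ => hv.ae_source (h p)

theorem IsVol.ae_interior [CompactSpace M] (hv : IsVol g μ) : ∀ᵐ x ∂μ, x ∈ I.interior M := by
  refine hv.ae fun p => ?_
  filter_upwards [ae_restrict_mem (target_meas p), ae_restrict_of_ae
    (measure_eq_zero_iff_ae_notMem.1 (I.convex_range.addHaar_frontier volume))] with z h1 h2
  rw [interior_iff ((extChartAt I p).map_target h1), (extChartAt I p).right_inv h1]
  exact (mem_interior_iff_notMem_frontier (extChartAt_target_subset_range p h1)).2 h2

theorem IsVol.integral {W : Type} [NormedAddCommGroup W] [NormedSpace ℝ W] [SecondCountableTopology W]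
    (hv : IsVol g μ) {F : M → W} (hF : Continuous F) (h0 : ∀ x ∉ (extChartAt I p).source, F x = 0) :
    ∫ x, F x ∂μ = ∫ z in (extChartAt I p).target, √(gm g p z).det • F ((extChartAt I p).symm z) := by
  rw [← setIntegral_eq_integral_of_forall_compl_eq_zero h0, hv p,
    integral_map (symm_aem p _) hF.aestronglyMeasurable, integral_withDensity_eq_integral_toReal_smul₀
      ((dens_cont g p).aemeasurable (target_meas p)).ennreal_ofReal
      (ae_of_all _ fun _ => ENNReal.ofReal_lt_top)]
  simp only [ENNReal.toReal_ofReal (Real.sqrt_nonneg _)]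

theorem IsVol.openPos (hv : IsVol g μ) : μ.IsOpenPosMeasure := by
  refine ⟨fun U hU hne h0 => ?_⟩
  obtain ⟨p, h1, h2⟩ := (dense_interior (I := I)).inter_open_nonempty U hU hne
  have h3 : μ.restrict (extChartAt I p).source U = 0 :=
    le_antisymm ((Measure.restrict_apply_le _ _).trans h0.le) zero_le
  rw [hv p, Measure.map_apply_of_aemeasurable (symm_aem p _) hU.measurableSet] at h3
  have h4 := withDensity_absolutelyContinuous'
    ((dens_cont g p).aemeasurable (target_meas p)).ennreal_ofReal (by
      filter_upwards [ae_restrict_mem (target_meas p)] with z hz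
      exact (ENNReal.ofReal_pos.2 (Real.sqrt_pos.2 (gm_pos g hz).det_pos)).ne') h3
  rw [Measure.restrict_apply' (target_meas p)] at h4
  exact (Measure.measure_pos_of_mem_nhds volume (inter_mem
    (extChartAt_preimage_mem_nhds (hU.mem_nhds h1))
    (mem_interior_iff_mem_nhds.1 (ModelWithCorners.isInteriorPoint_iff.1 h2)))).ne' h4

theorem IsVol.finite [CompactSpace M] (hv : IsVol g μ) : IsFiniteMeasure μ := by
  have h : ∀ p : M, ∃ W ∈ 𝓝 p, μ W < ⊤ := fun p => by
    obtain ⟨r, hr, hs⟩ := exists_ball (I := I) p
    have hK := (isCompact_closedBall (extChartAt I p p) r).inter_right I.isClosed_range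
    have hW := isOpen_extChartAt_preimage' (I := I) p (isOpen_ball (x := extChartAt I p p) (ε := r))
    refine ⟨_, ball_nhds (I := I) p hr, ?_⟩
    rw [← Measure.restrict_eq_self μ inter_subset_left, hv p,
      Measure.map_apply_of_aemeasurable (symm_aem p _) hW.measurableSet]
    refine lt_of_le_of_lt (measure_mono_ae (t := closedBall (extChartAt I p p) r ∩ range I)
      (withDensity_absolutelyContinuous _ _ ?_)) ?_
    · change ∀ᵐ z ∂volume.restrict (extChartAt I p).target, _
      filter_upwards [ae_restrict_mem (target_meas p)] with z hz h1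
      refine ⟨ball_subset_closedBall ?_, extChartAt_target_subset_range p hz⟩
      have h2 := h1.2
      rwa [mem_preimage, (extChartAt I p).right_inv hz] at h2
    · rw [withDensity_apply _ hK.measurableSet, Measure.restrict_restrict hK.measurableSet,
        inter_eq_left.2 hs]
      exact (((dens_cont g p).mono hs).integrableOn_compact hK).lintegral_lt_top
  have : IsLocallyFiniteMeasure μ := ⟨h⟩
  exact ⟨isCompact_univ.measure_lt_top⟩

/-- The derivative vanishes almost everywhere on a level set. -/
theorem ae_level {s t : Set (Ec n)} (hs : MeasurableSet s) (hst : s ⊆ t) {f : Ec n → ℝ}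
    {f' : Ec n → Ec n →L[ℝ] ℝ} (hf : ∀ z ∈ s, HasFDerivWithinAt f (f' z) t z)
    (h0 : ∀ z ∈ s, f z = 0) (j : Fin n) : ∀ᵐ z ∂volume.restrict s, f' z (bv j) = 0 := by
  have h1 : ApproximatesLinearOn (fun z => f z • bv j) (0 : Ec n →L[ℝ] Ec n) s 0 :=
    fun x hx y hy => by simp [h0 x hx, h0 y hy]
  filter_upwards [h1.norm_fderiv_sub_le volume hs (fun z => (f' z).smulRight (bv j))
    fun z hz => ((hf z hz).mono hst).smul_const _] with z hz
  rw [sub_zero, nonpos_iff_eq_zero, nnnorm_eq_zero] at hz
  have h2 := congrArg (fun L : Ec n →L[ℝ] Ec n => L (bv j) j) hz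
  simpa [bv] using h2

theorem IsVol.ae_dif [CompactSpace M] (hv : IsVol g μ) {V : Type} [NormedAddCommGroup V]
    [InnerProductSpace ℝ V] [FiniteDimensional ℝ V] {ζ : M → V} (hζ : ContMDiff I 𝓘(ℝ, V) ∞ ζ) :
    ∀ᵐ x ∂μ, ζ x = 0 → ∀ v, dif I ζ x v = 0 := by
  refine hv.ae fun p => ?_
  obtain ⟨C, hC, e⟩ := continuousOn_iff_isClosed.1 (chart_contDiff hζ p).continuousOn {0}
    isClosed_singleton
  have hs : MeasurableSet ((fun z => ζ ((extChartAt I p).symm z)) ⁻¹' {0} ∩
      (extChartAt I p).target) := e ▸ hC.measurableSet.inter (target_meas p)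
  have h1 := ae_all_iff.2 fun k => ae_all_iff.2 fun j => ae_level hs
    (inter_subset_right.trans (extChartAt_target_subset_range p))
    (fun z hz => (innerSL ℝ (stdOrthonormalBasis ℝ V k)).hasFDerivAt.comp_hasFDerivWithinAt z
      (chart_fderiv hζ hz.2)) (fun z hz => by
        rw [Function.comp_apply, show ζ ((extChartAt I p).symm z) = 0 from hz.1, map_zero]) j
  filter_upwards [ae_restrict_of_ae ((ae_restrict_iff' hs).1 h1), ae_restrict_mem (target_meas p)]
    with z h2 h3 h4 v
  obtain ⟨w, rfl⟩ := (fr_bij h3).2 v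
  rw [bv_sum w, map_sum, map_sum]
  refine Finset.sum_eq_zero fun j _ => ?_
  rw [map_smul, map_smul, ← (stdOrthonormalBasis ℝ V).sum_repr' (dif I ζ _ (fr I p z (bv j))),
    Finset.sum_eq_zero fun k _ => ?_, smul_zero]
  rw [show inner ℝ (stdOrthonormalBasis ℝ V k) (dif I ζ _ (fr I p z (bv j))) = 0 from
    h2 ⟨h4, h3⟩ k j, zero_smul]

end Vale.Agent.P088
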