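import Vale.Agent.P088.Core

/-! P088: the data determine the parallel sections. -/

open Set Filter Bundle Metric Topology MeasureTheory
open scoped Manifold ContDiff RealInnerProductSpace

noncomputable section

namespace Vale.Agent.P088

variable {n N : ℕ} {H : Type} [TopologicalSpace H] {I : ModelWithCorners ℝ (Ec n) H}
  {M : Type} [TopologicalSpace M] [ChartedSpace H M] [IsManifold I ∞ M] [PreconnectedSpace M]

theorem par_inner (A : Conn I M N) {s t : M → Fb N} (hs : ContMDiff I 𝓘(ℝ, Fb N) ∞ s)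
    (ht : ContMDiff I 𝓘(ℝ, Fb N) ∞ t) (h1 : ∀ x v, cov A s x v = 0) (h2 : ∀ x v, cov A t x v = 0)
    (x y : M) : ⟪s x, t x⟫ = ⟪s y, t y⟫ :=
  const_of_dif (sm_inner hs ht) (fun x v => by
    rw [dif_inner_cov A hs ht x v, h1, h2, inner_zero_left, inner_zero_right, add_zero]) x y

theorem par_unique (A : Conn I M N) {s t : M → Fb N} (hs : ContMDiff I 𝓘(ℝ, Fb N) ∞ s)
    (ht : ContMDiff I 𝓘(ℝ, Fb N) ∞ t) (h1 : ∀ x v, cov A s x v = 0) (h2 : ∀ x v, cov A t x v = 0)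
    {y : M} (hy : s y = t y) (x : M) : s x = t x := by
  have d : ∀ x v, cov A (fun x => s x - t x) x v = 0 := fun x v => by
    rw [cov_sub hs ht x v, h1, h2, sub_zero]
  have h := par_inner A (sm_sub hs ht) (sm_sub hs ht) d d x y
  rw [hy, sub_self, inner_zero_left] at h
  exact sub_eq_zero.1 (inner_self_eq_zero.1 h)

variable [MeasurableSpace M] [BorelSpace M] [CompactSpace M] [T2Space M] {g : Met I M}
  {μ : Measure M}

theorem par_step (hv : IsVol g μ) {A₁ A₂ : Conn I M N} {s u₁ u₂ : M → Fb N} {φ : M → ℝ}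
    (hs : ContMDiff I 𝓘(ℝ, Fb N) ∞ s) (s1 : ∀ x, ⟪s x, s x⟫ = 1) (s2 : ∀ x v, cov A₁ s x v = 0)
    (h0 : ∀ x, 0 ≤ φ x) {y : M} (hy : y ∈ I.boundary M) (h1 : 0 < φ y)
    (k₁ : IsSol g μ A₁ (fun x => φ x • s x) u₁) (k₂ : IsSol g μ A₂ (fun x => φ x • s x) u₂)
    (hD : form g μ A₁ u₁ u₁ = form g μ A₂ u₂ u₂) : ∃ t : M → Fb N, ContMDiff I 𝓘(ℝ, Fb N) ∞ t ∧
      (∀ x v, cov A₂ t x v = 0) ∧ ∀ x ∈ I.boundary M, 0 < φ x → t x = s x := by
  obtain ⟨f, ef⟩ : ∃ f : M → ℝ, f = fun x => ⟪u₁ x, s x⟫ := ⟨_, rfl⟩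
  have hf : ContMDiff I 𝓘(ℝ, ℝ) ∞ f := ef ▸ sm_inner k₁.smooth hs
  have b1 : ∀ x ∈ I.boundary M, f x = φ x := fun x hx => by
    simp only [ef, k₁.bd hx, real_inner_smul_left, s1, mul_one]
  have e1 : ∀ ζ : M → ℝ, ContMDiff I 𝓘(ℝ, ℝ) ∞ ζ → ∀ x,
      en g (cov A₁ u₁) (cov A₁ fun x => ζ x • s x) x =
        en g (fun x v => dif I f x v) (fun x v => dif I ζ x v) x := fun ζ hζ x => by
    have d1 : ∀ i, cov A₁ (fun x => ζ x • s x) x (bv i) = dif I ζ x (bv i) • s x := fun i => by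
      rw [cov_smul hζ hs x (bv i), s2 x (bv i), smul_zero, zero_add]
    have d2 : ∀ i, dif I f x (bv i) = ⟪cov A₁ u₁ x (bv i), s x⟫ := fun i => by
      rw [ef, dif_inner_cov A₁ k₁.smooth hs x (bv i), s2 x (bv i), inner_zero_right, zero_add]
    simp only [en, d1, d2, ipm_tens]
  have hh : Harm g μ f := fun ζ hζ hb => by
    simp only [← e1 ζ hζ]
    exact k₁.test hv (sm_smul hζ hs) fun x hx => by rw [hb x hx, zero_smul]
  have c1 := en_cont g (Fld.cov A₁ k₁.smooth) (Fld.cov A₁ k₁.smooth)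
  have c2 := en_cont g (Fld.dif hf) (Fld.dif hf)
  have e2 : ∫ x, en g (cov A₁ u₁) (cov A₁ u₁) x -
      en g (fun x v => dif I f x v) (fun x v => dif I f x v) x ∂μ = 0 := by
    rw [← k₁.test hv (sm_sub k₁.smooth (sm_smul hf hs)) fun x hx => by
      rw [k₁.bd hx, b1 x hx, sub_self]]
    refine integral_congr_ae (ae_of_all _ fun x => ?_)
    have d1 : ∀ i, cov A₁ (fun x => u₁ x - f x • s x) x (bv i) =
        cov A₁ u₁ x (bv i) - cov A₁ (fun x => f x • s x) x (bv i) := fun i =>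
      cov_sub k₁.smooth (sm_smul hf hs) x _
    simp only [← e1 f hf x]
    simp only [en, d1, ipm_sub_right]
  rw [integral_sub (hv.int c1) (hv.int c2), sub_eq_zero, ← form_re hv k₁.smooth k₁.smooth, hD,
    form_re hv k₂.smooth k₂.smooth] at e2
  have p0 := hh.nonneg hv hf (fun x hx => (h0 x).trans_eq (b1 x hx).symm) hy
  have p1 := hh.pos hv hf p0 (h1.trans_eq (b1 y hy).symm)
  have p2 := hh.picone hv hf p0 p1 A₂ k₂.smooth (fun x hx => by
    simp only [k₂.bd hx, b1 x hx, real_inner_smul_left, real_inner_smul_right, s1, mul_one]) e2.le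
  obtain ⟨t, t1, t2, t3⟩ := ext_par A₂ (σ := fun x => (f x)⁻¹ • u₂ x) fun p z hz hi => by
    have m := mem_interior_iff_mem_nhds.1 hi
    have q := (p1 _ ((interior_iff ((extChartAt I p).map_target hz)).2
      (by rwa [(extChartAt I p).right_inv hz]))).ne'
    refine ⟨_, ((hasDerivAt_inv q).comp_hasFDerivAt z ((chart_fderiv hf hz).hasFDerivAt m)).fun_smul
      ((chart_fderiv k₂.smooth hz).hasFDerivAt m), fun v => ?_⟩
    have r := p2 _ (fr I p z v)
    rw [cov, sub_eq_zero] at r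
    simp only [add_apply, smul_apply,
      ContinuousLinearMap.smulRight_apply, ContinuousLinearMap.comp_apply, Function.comp_apply,
      ContinuousLinearMap.map_smul_of_tower]
    rw [smul_assoc, ← r, smul_smul, sq, mul_inv, neg_mul, inv_mul_cancel_right₀ q, neg_smul, smul_add]
    abel
  have t4 := Continuous.ext_on (dense_interior (I := I)) (hf.continuous.smul t1.continuous)
    k₂.smooth.continuous fun x hx => by
      rw [Pi.smul_apply', ← t2 hx, smul_inv_smul₀ (p1 x hx).ne']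
  refine ⟨t, t1, t3, fun x hx h2 => smul_right_injective _ h2.ne' ?_⟩
  have t5 := congrFun t4 x
  rw [Pi.smul_apply', k₂.bd hx, b1 x hx] at t5
  exact t5

theorem exists_bump {O : Set M} (hO : IsOpen O) {x : M} (hx : x ∈ O) : ∃ φ : M → ℝ,
    ContMDiff I 𝓘(ℝ, ℝ) ∞ φ ∧ (∀ y, 0 ≤ φ y) ∧ 0 < φ x ∧ tsupport φ ⊆ O := by
  obtain ⟨φ, -, h⟩ := (SmoothBumpFunction.nhds_basis_tsupport (I := I) x).mem_iff.1 (hO.mem_nhds hx)
  exact ⟨φ, φ.contMDiff, fun _ => φ.nonneg, by rw [φ.eq_one]; exact one_pos, h⟩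

theorem par_main (hv : IsVol g μ) {A₁ A₂ : Conn I M N} {O : Set M} (hO : IsOpen O) {y : M}
    (hy : y ∈ O ∩ I.boundary M) {S₁ S₂ : (M → Fb N) → M → Fb N}
    (h₁ : ∀ f, IsTest I (O ∩ I.boundary M) f → IsSol g μ A₁ f (S₁ f))
    (h₂ : ∀ f, IsTest I (O ∩ I.boundary M) f → IsSol g μ A₂ f (S₂ f))
    (hD : ∀ f, IsTest I (O ∩ I.boundary M) f →
      form g μ A₁ (S₁ f) (S₁ f) = form g μ A₂ (S₂ f) (S₂ f))
    {s : M → Fb N} (hs : ContMDiff I 𝓘(ℝ, Fb N) ∞ s) (s2 : ∀ x v, cov A₁ s x v = 0) :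
    ∃ t : M → Fb N, ContMDiff I 𝓘(ℝ, Fb N) ∞ t ∧ (∀ x v, cov A₂ t x v = 0) ∧
      EqOn t s (O ∩ I.boundary M) := by
  have key : ∀ s : M → Fb N, ContMDiff I 𝓘(ℝ, Fb N) ∞ s → (∀ x v, cov A₁ s x v = 0) →
      (∀ x, ⟪s x, s x⟫ = 1) → ∃ t : M → Fb N, ContMDiff I 𝓘(ℝ, Fb N) ∞ t ∧
        (∀ x v, cov A₂ t x v = 0) ∧ EqOn t s (O ∩ I.boundary M) := fun s hs s2 s1 => by
    choose! φ a1 a2 a3 a4 using fun x (hx : x ∈ O ∩ I.boundary M) => exists_bump (I := I) hO hx.1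
    have k : ∀ x ∈ O ∩ I.boundary M, ∃ t : M → Fb N, ContMDiff I 𝓘(ℝ, Fb N) ∞ t ∧
        (∀ x v, cov A₂ t x v = 0) ∧ t y = s y ∧ t x = s x := fun x hx => by
      have T : IsTest I (O ∩ I.boundary M) fun z => (φ y z + φ x z) • s z := by
        refine ⟨sm_smul ((a1 y hy).add (a1 x hx)) hs, (closure_minimal
          (t := (tsupport (φ y) ∪ tsupport (φ x)) ∩ I.boundary M) (fun z hz => ⟨?_, hz.1⟩)
          (((isClosed_tsupport _).union (isClosed_tsupport _)).inter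
            (I.isClosed_boundary (n := ∞) (by simp)))).trans
          (inter_subset_inter_left _ (union_subset (a4 y hy) (a4 x hx)))⟩
        by_contra h
        rw [mem_union, not_or] at h
        exact hz.2 (by simp only [image_eq_zero_of_notMem_tsupport h.1,
          image_eq_zero_of_notMem_tsupport h.2, add_zero, zero_smul])
      have q := add_pos_of_pos_of_nonneg (a3 y hy) (a2 x hx y)
      obtain ⟨t, t1, t2, t3⟩ := par_step hv hs s1 s2 (fun z => add_nonneg (a2 y hy z) (a2 x hx z))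
        hy.2 q (h₁ _ T) (h₂ _ T) (hD _ T)
      exact ⟨t, t1, t2, t3 y hy.2 q, t3 x hx.2 (add_pos_of_nonneg_of_pos (a2 y hy x) (a3 x hx))⟩
    obtain ⟨t, t1, t2, t3, -⟩ := k y hy
    refine ⟨t, t1, t2, fun x hx => ?_⟩
    obtain ⟨w, w1, w2, w3, w4⟩ := k x hx
    exact (par_unique A₂ t1 w1 t2 w2 (t3.trans w3.symm) x).trans w4
  have sc : ∀ (A : Conn I M N) (c : ℝ) (s : M → Fb N), ContMDiff I 𝓘(ℝ, Fb N) ∞ s →
      (∀ x v, cov A s x v = 0) → ∀ x v, cov A (fun x => c • s x) x v = 0 := fun A c s hs h x v => by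
    rw [cov_smul contMDiff_const hs x v, h, dif_zero (EventuallyEq.refl _ _), smul_zero, zero_add]
    exact zero_smul _ _
  by_cases h0 : s y = 0
  · refine ⟨fun x => (0 : ℝ) • s x, ?_, fun x v => ?_, fun x _ => ?_⟩
    · exact sm_smul contMDiff_const hs
    · simp only [zero_smul, cov, map_zero, add_zero]
      rw [dif_zero (EventuallyEq.refl _ _)]
      rfl
    · have h := par_inner A₁ hs hs s2 s2 x y
      rw [h0, inner_zero_left] at h
      simp only [zero_smul, inner_self_eq_zero.1 h]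
  have n0 := norm_ne_zero_iff.2 h0
  obtain ⟨t, t1, t2, t3⟩ := key (fun x => ‖s y‖⁻¹ • s x) (sm_smul contMDiff_const hs)
    (sc A₁ _ s hs s2) fun x => by
      rw [real_inner_smul_left, real_inner_smul_right, par_inner A₁ hs hs s2 s2 x y,
        real_inner_self_eq_norm_mul_norm, inv_mul_cancel_left₀ n0, inv_mul_cancel₀ n0]
  refine ⟨fun x => ‖s y‖ • t x, sm_smul contMDiff_const t1, sc A₂ _ t t1 t2, fun x hx => ?_⟩
  simp only [t3 hx, smul_inv_smul₀ n0]

end Vale.Agent.P088
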