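import Mathlib

/-! Definitions used in the statement for P088. -/

open MeasureTheory Set Bundle
open scoped Manifold ContDiff

noncomputable section

namespace Vale.Agent.P088

/-- The model space of the manifold. -/
abbrev Ec (n : ℕ) : Type := EuclideanSpace ℝ (Fin n)

/-- The fibre of the bundle. -/
abbrev Fb (N : ℕ) : Type := EuclideanSpace ℂ (Fin N)

/-- The endomorphisms of the fibre. -/
abbrev Op (N : ℕ) : Type := Fb N →L[ℂ] Fb N

/-- The standard basis. -/
def bv {n : ℕ} (i : Fin n) : Ec n := EuclideanSpace.single i 1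

/-- The matrix of a bilinear form. -/
def gram {n : ℕ} (b : Ec n → Ec n → ℝ) : Matrix (Fin n) (Fin n) ℝ :=
  Matrix.of fun i j => b (bv i) (bv j)

variable {n N : ℕ} {H : Type} [TopologicalSpace H] (I : ModelWithCorners ℝ (Ec n) H)
  (M : Type) [TopologicalSpace M] [ChartedSpace H M] [IsManifold I ∞ M]

/-- Smooth Riemannian metrics. -/
abbrev Met : Type := ContMDiffRiemannianMetric I ∞ (Ec n) fun x : M => TangentSpace I x

/-- Smooth one-forms with skew-Hermitian values. -/
structure Conn (N : ℕ) where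
  A : ∀ x : M, TangentSpace I x →L[ℝ] Op N
  skew : ∀ x v, star (A x v) = -A x v
  smooth : ContMDiff I.tangent 𝓘(ℝ, Op N) ∞ fun q : TangentBundle I M => A q.1 q.2

variable {I M}

/-- The differential of a vector valued function. -/
def dif {V : Type} [NormedAddCommGroup V] [NormedSpace ℝ V] (I : ModelWithCorners ℝ (Ec n) H)
    (u : M → V) (x : M) : TangentSpace I x →L[ℝ] V := mfderiv I 𝓘(ℝ, V) u x

/-- The covariant derivative. -/
def cov (A : Conn I M N) (u : M → Fb N) (x : M) (v : TangentSpace I x) : Fb N :=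
  dif I u x v + A.A x v (u x)

/-- The coordinate vector fields of the chart at `p`. -/
def fr (I : ModelWithCorners ℝ (Ec n) H) (p : M) (z : Ec n) :
    Ec n →L[ℝ] TangentSpace I ((extChartAt I p).symm z) :=
  mfderivWithin 𝓘(ℝ, Ec n) I (extChartAt I p).symm (range I) z

variable [MeasurableSpace M]

/-- `μ` is the Riemannian volume. -/
def IsVol (g : Met I M) (μ : Measure M) : Prop :=
  ∀ p : M, μ.restrict (extChartAt I p).source = Measure.map (extChartAt I p).symm
    ((volume.restrict (extChartAt I p).target).withDensity fun z => ENNReal.ofReal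
      √(gram fun v w => g.inner ((extChartAt I p).symm z) (fr I p z v) (fr I p z w)).det)

/-- The energy form of a connection. -/
def form (g : Met I M) (μ : Measure M) (A : Conn I M N) (u w : M → Fb N) : ℂ :=
  ∫ x, ∑ i, ∑ j, (gram fun v v' => g.inner x v v')⁻¹ i j •
    inner ℂ (cov A u x (bv i)) (cov A w x (bv j)) ∂μ

/-- `u` solves the Dirichlet problem with boundary values `f`. -/
structure IsSol (g : Met I M) (μ : Measure M) (A : Conn I M N) (f u : M → Fb N) : Prop where
  smooth : ContMDiff I 𝓘(ℝ, Fb N) ∞ u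
  bd : EqOn u f (I.boundary M)
  eq : ∀ ζ : M → Fb N, ContMDiff I 𝓘(ℝ, Fb N) ∞ ζ → tsupport ζ ⊆ I.interior M →
    form g μ A u ζ = 0

/-- Smooth boundary values supported in `Γ`. -/
def IsTest (I : ModelWithCorners ℝ (Ec n) H) (Γ : Set M) (f : M → Fb N) : Prop :=
  ContMDiff I 𝓘(ℝ, Fb N) ∞ f ∧ closure {x ∈ I.boundary M | f x ≠ 0} ⊆ Γ

end Vale.Agent.P088
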